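import Mathlib

/-!
# Fences and global existence for ODEs given by one-sided derivative data

Here a function `σ : ℝ → E` is given together with `D : ℝ → E` such that
`HasDerivWithinAt σ (D t) (Set.Ici 0) t` for `0 ≤ t < T`.
-/

namespace Vale.Agent.H19

open Set Filter Topology
open scoped NNReal

lemma contOn_of_deriv {E : Type*} [NormedAddCommGroup E] [NormedSpace ℝ E]
    {σ D : ℝ → E} {T : ℝ}
    (hσ : ∀ t, 0 ≤ t → t < T → HasDerivWithinAt σ (D t) (Ici 0) t)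
    {a b : ℝ} (ha : 0 ≤ a) (hb : b < T) : ContinuousOn σ (Icc a b) := by
  intro t ht
  have h := (hσ t (le_trans ha ht.1) (lt_of_le_of_lt ht.2 hb)).continuousWithinAt
  exact h.mono (fun x hx => le_trans ha hx.1)

lemma rderiv_of_deriv {E : Type*} [NormedAddCommGroup E] [NormedSpace ℝ E]
    {σ D : ℝ → E} {T : ℝ}
    (hσ : ∀ t, 0 ≤ t → t < T → HasDerivWithinAt σ (D t) (Ici 0) t)
    {t : ℝ} (h0 : 0 ≤ t) (hT : t < T) : HasDerivWithinAt σ (D t) (Ici t) t :=
  (hσ t h0 hT).mono (Ici_subset_Ici.mpr h0)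

/-- Lower fence: `σ` cannot cross downwards a level `lo` at which its derivative is positive. -/
lemma lower_fence' {σ D : ℝ → ℝ} {T t0 lo : ℝ} (ht0 : 0 ≤ t0)
    (hσ : ∀ t, 0 ≤ t → t < T → HasDerivWithinAt σ (D t) (Ici 0) t)
    (h0 : lo ≤ σ t0) (hD : ∀ t, t0 ≤ t → t < T → σ t = lo → 0 < D t) :
    ∀ t, t0 ≤ t → t < T → lo ≤ σ t := by
  intro t ht htT
  have hcont : ContinuousOn (fun τ => - σ τ) (Icc t0 t) := (contOn_of_deriv hσ ht0 htT).neg
  have hderiv : ∀ x ∈ Ico t0 t, HasDerivWithinAt (fun τ => - σ τ) (- D x) (Ici x) x :=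
    fun x hx => (rderiv_of_deriv hσ (le_trans ht0 hx.1) (lt_trans hx.2 htT)).neg
  have key := image_le_of_deriv_right_lt_deriv_boundary' (f := fun τ => - σ τ)
    (f' := fun τ => - D τ) (a := t0) (b := t) (B := fun _ => - lo) (B' := fun _ => 0)
    hcont hderiv (by simpa using h0) continuousOn_const
    (fun x _ => hasDerivWithinAt_const _ _ _)
    (fun x hx hx' => by
      have h1 : σ x = lo := by simpa using hx'
      have h2 := hD x hx.1 (lt_trans hx.2 htT) h1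
      simpa using h2)
    (x := t) ⟨ht, le_rfl⟩
  simpa using key

/-- Upper fence: `σ` cannot cross upwards a level `hi` at which its derivative is negative. -/
lemma upper_fence' {σ D : ℝ → ℝ} {T t0 hi : ℝ} (ht0 : 0 ≤ t0)
    (hσ : ∀ t, 0 ≤ t → t < T → HasDerivWithinAt σ (D t) (Ici 0) t)
    (h0 : σ t0 ≤ hi) (hD : ∀ t, t0 ≤ t → t < T → σ t = hi → D t < 0) :
    ∀ t, t0 ≤ t → t < T → σ t ≤ hi := by
  intro t ht htT
  have hcont : ContinuousOn σ (Icc t0 t) := contOn_of_deriv hσ ht0 htT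
  have hderiv : ∀ x ∈ Ico t0 t, HasDerivWithinAt σ (D x) (Ici x) x :=
    fun x hx => rderiv_of_deriv hσ (le_trans ht0 hx.1) (lt_trans hx.2 htT)
  exact image_le_of_deriv_right_lt_deriv_boundary' (f := σ)
    (f' := D) (a := t0) (b := t) (B := fun _ => hi) (B' := fun _ => 0)
    hcont hderiv h0 continuousOn_const
    (fun x _ => hasDerivWithinAt_const _ _ _)
    (fun x hx hx' => hD x hx.1 (lt_trans hx.2 htT) hx')
    (x := t) ⟨ht, le_rfl⟩

/-- If the derivative is at least `μ > 0` whenever `σ < α`, then `σ` reaches the level `α`. -/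
lemma reach_lower' {σ D : ℝ → ℝ}
    (hσ : ∀ t, 0 ≤ t → HasDerivWithinAt σ (D t) (Ici 0) t)
    (α μ : ℝ) (hμ : 0 < μ) (hD : ∀ t, 0 ≤ t → σ t < α → μ ≤ D t) :
    ∃ t, 0 ≤ t ∧ α ≤ σ t := by
  by_contra hcon
  push Not at hcon
  have hσT : ∀ T : ℝ, ∀ t, 0 ≤ t → t < T → HasDerivWithinAt σ (D t) (Ici 0) t :=
    fun T t ht _ => hσ t ht
  have h0 : σ 0 < α := hcon 0 le_rfl
  obtain ⟨T1, hT1def⟩ : ∃ T1 : ℝ, T1 = (α - σ 0) / μ + 1 := ⟨_, rfl⟩
  have hT1pos : 0 < T1 := by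
    have : 0 ≤ (α - σ 0) / μ := div_nonneg (by linarith) (le_of_lt hμ)
    rw [hT1def]; linarith
  have key := image_le_of_deriv_right_le_deriv_boundary (f := fun t => σ 0 + μ * t)
    (f' := fun _ => μ) (a := 0) (b := T1) (B := σ) (B' := D)
    (by fun_prop)
    (fun t _ => by
      have := ((hasDerivAt_id t).const_mul μ).const_add (σ 0)
      simpa using this.hasDerivWithinAt)
    (by simp)
    (contOn_of_deriv (hσT (T1 + 1)) le_rfl (by linarith))
    (fun t ht => rderiv_of_deriv (hσT (T1 + 1)) ht.1 (by linarith [ht.2]))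
    (fun t ht => hD t ht.1 (hcon t ht.1))
    (x := T1) ⟨le_of_lt hT1pos, le_rfl⟩
  have h1 := hcon T1 (le_of_lt hT1pos)
  have h2 : μ * T1 = (α - σ 0) + μ := by
    rw [hT1def]; field_simp
  have h3 : σ 0 + μ * T1 ≤ σ T1 := key
  linarith

/-- If the derivative is at most `-μ < 0` whenever `σ > β`, then `σ` reaches the level `β`. -/
lemma reach_upper' {σ D : ℝ → ℝ}
    (hσ : ∀ t, 0 ≤ t → HasDerivWithinAt σ (D t) (Ici 0) t)
    (β μ : ℝ) (hμ : 0 < μ) (hD : ∀ t, 0 ≤ t → β < σ t → D t ≤ - μ) :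
    ∃ t, 0 ≤ t ∧ σ t ≤ β := by
  have hσ' : ∀ t, 0 ≤ t → HasDerivWithinAt (fun τ => - σ τ) (- D t) (Ici 0) t :=
    fun t ht => (hσ t ht).neg
  obtain ⟨t, ht, h⟩ := reach_lower' (σ := fun τ => - σ τ) (D := fun t => - D t) hσ' (- β) μ hμ
    (fun t ht h => by
      have := hD t ht (by linarith)
      linarith)
  exact ⟨t, ht, by linarith⟩

/-- Global forward existence for a bounded, uniformly Lipschitz, time-continuous vector field. -/
lemma exists_global_sol {E : Type*} [NormedAddCommGroup E] [NormedSpace ℝ E] [CompleteSpace E]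
    (G : ℝ → E → E) (K L : ℝ≥0) (hK : ∀ t, LipschitzWith K (G t))
    (hL : ∀ t x, ‖G t x‖ ≤ L) (hGc : ∀ x, Continuous (fun t => G t x)) (s0 : E) :
    ∃ σ : ℝ → E, σ 0 = s0 ∧ ∀ t, 0 ≤ t → HasDerivWithinAt σ (G t (σ t)) (Ici 0) t := by
  have hmem : ∀ n : ℕ, (0 : ℝ) ∈ Icc (0 : ℝ) (n + 1) := fun n =>
    ⟨le_rfl, by positivity⟩
  have hpl : ∀ n : ℕ, IsPicardLindelof G (tmin := 0) (tmax := n + 1)
      ⟨0, hmem n⟩ s0 (L * ((n : ℝ≥0) + 1)) 0 L K := fun n =>
    { lipschitzOnWith := fun t _ => (hK t).lipschitzOnWith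
      continuousOn := fun x _ => (hGc x).continuousOn
      norm_le := fun t _ x _ => hL t x
      mul_max_le := by
        have h1 : max ((n : ℝ) + 1 - 0) (0 - 0) = (n : ℝ) + 1 := by
          rw [sub_zero, sub_zero]; exact max_eq_left (by positivity)
        simp only [NNReal.coe_mul, NNReal.coe_add, NNReal.coe_natCast, NNReal.coe_one,
          NNReal.coe_zero]
        rw [h1]
        simp }
  have hex : ∀ n : ℕ, ∃ σ : ℝ → E, σ 0 = s0 ∧
      ∀ t ∈ Icc (0 : ℝ) (n + 1), HasDerivWithinAt σ (G t (σ t)) (Icc (0 : ℝ) (n + 1)) t :=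
    fun n => (hpl n).exists_eq_forall_mem_Icc_hasDerivWithinAt₀
  choose σ hσ0 hσ using hex
  have hagree : ∀ n m : ℕ, n ≤ m → ∀ t ∈ Icc (0 : ℝ) (n + 1), σ n t = σ m t := by
    intro n m hnm
    have hsub : Icc (0 : ℝ) (n + 1) ⊆ Icc (0 : ℝ) (m + 1) := by
      apply Icc_subset_Icc_right
      have : (n : ℝ) ≤ m := by exact_mod_cast hnm
      linarith
    apply ODE_solution_unique (v := G) (K := K) hK
    · exact fun t ht => (hσ n t ht).continuousWithinAt
    · exact fun t ht => (hσ n t (Ico_subset_Icc_self ht)).mono_of_mem_nhdsWithin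
        (Icc_mem_nhdsGE_of_mem ht)
    · exact fun t ht => ((hσ m t (hsub ht)).continuousWithinAt).mono hsub
    · exact fun t ht => (hσ m t (hsub (Ico_subset_Icc_self ht))).mono_of_mem_nhdsWithin
        (Icc_mem_nhdsGE_of_mem ⟨ht.1, lt_of_lt_of_le ht.2 (hsub (right_mem_Icc.mpr
          (by positivity))).2⟩)
    · rw [hσ0 n, hσ0 m]
  have hceil : ∀ t : ℝ, 0 ≤ t → t ∈ Icc (0 : ℝ) ((⌈t⌉₊ : ℝ) + 1) := fun t ht =>
    ⟨ht, by have := Nat.le_ceil t; linarith⟩
  refine ⟨fun t => σ ⌈t⌉₊ t, ?_, ?_⟩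
  · simp [hσ0]
  · intro t ht
    obtain ⟨N, hN⟩ : ∃ N : ℕ, N = ⌈t⌉₊ + 1 := ⟨_, rfl⟩
    have htN : t ∈ Ico (0 : ℝ) ((N : ℝ) + 1) := by
      refine ⟨ht, ?_⟩
      have := Nat.le_ceil t
      rw [hN]; push_cast; linarith
    have hev : (fun t' => σ ⌈t'⌉₊ t') =ᶠ[𝓝[Ici 0] t] σ N := by
      have hmem2 : Ici (0 : ℝ) ∩ Iio (t + 1) ∈ 𝓝[Ici 0] t :=
        inter_mem_nhdsWithin _ (Iio_mem_nhds (by linarith))
      filter_upwards [hmem2] with t' ht'
      have h1 : ⌈t'⌉₊ ≤ N := by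
        rw [hN]
        apply Nat.ceil_le.mpr
        have := Nat.le_ceil t
        push_cast
        have h3 : t' < t + 1 := ht'.2
        linarith
      exact hagree _ _ h1 t' (hceil t' ht'.1)
    have hval : σ ⌈t⌉₊ t = σ N t := hagree _ _ (by rw [hN]; exact Nat.le_succ _) t (hceil t ht)
    have hd : HasDerivWithinAt (σ N) (G t (σ N t)) (Ici 0) t :=
      (hσ N t (Ico_subset_Icc_self htN)).mono_of_mem_nhdsWithin (by
        rw [← Ici_inter_Iic]
        exact inter_mem_nhdsWithin _ (Iic_mem_nhds htN.2))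
    simp only [hval]
    exact hd.congr_of_eventuallyEq hev hval

end Vale.Agent.H19
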