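import Mathlib
import Vale.Agent.H19.Fence

/-!
# Invariant boxes for ODEs on `A → ℝ`, attraction inside a box, uniqueness
-/

namespace Vale.Agent.H19

open Set Filter Topology Metric
open scoped NNReal

/-- A weighted finite sum of Lipschitz maps is Lipschitz, uniformly in bounded weights. -/
lemma lipschitzOn_weighted_sum {ι E F : Type*} [PseudoMetricSpace E] [NormedAddCommGroup F]
    [NormedSpace ℝ F] (R : Finset ι) (ψ : ι → E → F) (S : Set E) (Kr : ι → ℝ≥0)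
    (hψ : ∀ r ∈ R, LipschitzOnWith (Kr r) (ψ r) S) (w : ι → ℝ) (bnd : ι → ℝ≥0)
    (hw : ∀ r ∈ R, |w r| ≤ bnd r) :
    LipschitzOnWith (∑ r ∈ R, bnd r * Kr r) (fun x => ∑ r ∈ R, w r • ψ r x) S := by
  apply LipschitzOnWith.of_dist_le_mul
  intro x hx y hy
  calc dist (∑ r ∈ R, w r • ψ r x) (∑ r ∈ R, w r • ψ r y)
      ≤ ∑ r ∈ R, dist (w r • ψ r x) (w r • ψ r y) := dist_sum_sum_le _ _ _
    _ ≤ ∑ r ∈ R, ((bnd r : ℝ) * (Kr r : ℝ)) * dist x y := by
        apply Finset.sum_le_sum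
        intro r hr
        rw [dist_smul₀, Real.norm_eq_abs]
        calc |w r| * dist (ψ r x) (ψ r y) ≤ (bnd r : ℝ) * ((Kr r : ℝ) * dist x y) :=
              mul_le_mul (hw r hr) ((hψ r hr).dist_le_mul x hx y hy) dist_nonneg (bnd r).2
          _ = (bnd r : ℝ) * (Kr r : ℝ) * dist x y := by ring
    _ = ((∑ r ∈ R, bnd r * Kr r : ℝ≥0) : ℝ) * dist x y := by
        rw [← Finset.sum_mul]; push_cast; rfl

lemma norm_weighted_sum_le {ι F : Type*} [NormedAddCommGroup F] [NormedSpace ℝ F]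
    (R : Finset ι) (u : ι → F) (w : ι → ℝ) (bnd B : ι → ℝ≥0)
    (hw : ∀ r ∈ R, |w r| ≤ bnd r) (hu : ∀ r ∈ R, ‖u r‖ ≤ B r) :
    ‖∑ r ∈ R, w r • u r‖ ≤ ((∑ r ∈ R, bnd r * B r : ℝ≥0) : ℝ) := by
  calc ‖∑ r ∈ R, w r • u r‖ ≤ ∑ r ∈ R, ‖w r • u r‖ := norm_sum_le _ _
    _ ≤ ∑ r ∈ R, (bnd r : ℝ) * (B r : ℝ) := by
        apply Finset.sum_le_sum
        intro r hr
        rw [norm_smul, Real.norm_eq_abs]
        exact mul_le_mul (hw r hr) (hu r hr) (norm_nonneg _) (bnd r).2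
    _ = ((∑ r ∈ R, bnd r * B r : ℝ≥0) : ℝ) := by push_cast; rfl

/-- A continuous positive function on a compact set is bounded below by a positive constant. -/
lemma exists_pos_lower_bound {X : Type*} [TopologicalSpace X] {C : Set X} (hC : IsCompact C)
    {φ : X → ℝ} (hφ : ContinuousOn φ C) (hpos : ∀ x ∈ C, 0 < φ x) :
    ∃ μ > 0, ∀ x ∈ C, μ ≤ φ x := by
  by_cases hne : C.Nonempty
  · obtain ⟨x, hx, hxmin⟩ := hC.exists_isMinOn hne hφ
    exact ⟨φ x, hpos x hx, fun y hy => hxmin hy⟩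
  · rw [Set.not_nonempty_iff_eq_empty] at hne
    exact ⟨1, one_pos, fun x hx => by rw [hne] at hx; exact absurd hx (Set.notMem_empty x)⟩

/-- Existence of a global solution staying in a box on whose faces the field points inwards. -/
lemma exists_box_sol {A : Type*} [Fintype A] (F : ℝ → (A → ℝ) → (A → ℝ)) (lo hi : A → ℝ)
    (K L : ℝ≥0) (hK : ∀ t, LipschitzOnWith K (F t) (Icc lo hi))
    (hL : ∀ t, ∀ s ∈ Icc lo hi, ‖F t s‖ ≤ L)
    (hFc : ∀ s ∈ Icc lo hi, Continuous (fun t => F t s))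
    (hin_lo : ∀ t, ∀ s ∈ Icc lo hi, ∀ a, s a = lo a → 0 < F t s a)
    (hin_hi : ∀ t, ∀ s ∈ Icc lo hi, ∀ a, s a = hi a → F t s a < 0)
    (s0 : A → ℝ) (hs0 : s0 ∈ Icc lo hi) :
    ∃ s : ℝ → (A → ℝ), s 0 = s0 ∧
      ∀ t, 0 ≤ t → (HasDerivWithinAt s (F t (s t)) (Ici 0) t ∧ s t ∈ Icc lo hi) := by
  have hlohi : lo ≤ hi := le_trans hs0.1 hs0.2
  obtain ⟨cl, hcl⟩ : ∃ cl : (A → ℝ) → (A → ℝ),
      ∀ s a, cl s a = max (lo a) (min (hi a) (s a)) := ⟨_, fun _ _ => rfl⟩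
  have hclmem : ∀ s, cl s ∈ Icc lo hi := fun s =>
    ⟨fun a => by rw [hcl]; exact le_max_left _ _,
      fun a => by rw [hcl]; exact max_le (hlohi a) (min_le_left _ _)⟩
  have hcldist : ∀ x y, dist (cl x) (cl y) ≤ dist x y := by
    intro x y
    rw [dist_pi_le_iff dist_nonneg]
    intro a
    rw [hcl, hcl]
    have h1 : LipschitzWith 1 (fun u : ℝ => max (lo a) (min (hi a) u)) :=
      (LipschitzWith.id.const_min (hi a)).const_max (lo a)
    have h2 := h1.dist_le_mul (x a) (y a)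
    simp only [NNReal.coe_one, one_mul] at h2
    exact le_trans h2 (dist_le_pi_dist x y a)
  have hclid : ∀ s ∈ Icc lo hi, cl s = s := by
    intro s hs
    funext a
    rw [hcl, min_eq_right (hs.2 a), max_eq_right (hs.1 a)]
  have hGK : ∀ t, LipschitzWith K (fun s => F t (cl s)) := fun t => by
    apply LipschitzWith.of_dist_le_mul
    intro x y
    calc dist (F t (cl x)) (F t (cl y)) ≤ K * dist (cl x) (cl y) :=
          (hK t).dist_le_mul _ (hclmem x) _ (hclmem y)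
      _ ≤ K * dist x y := mul_le_mul_of_nonneg_left (hcldist x y) K.2
  obtain ⟨s, hs0', hs⟩ := exists_global_sol (fun t s => F t (cl s)) K L hGK
    (fun t x => hL t _ (hclmem x)) (fun x => hFc _ (hclmem x)) s0
  have hcoord : ∀ a, ∀ t, 0 ≤ t →
      HasDerivWithinAt (fun τ => s τ a) (F t (cl (s t)) a) (Ici 0) t :=
    fun a t ht => hasDerivWithinAt_pi.mp (hs t ht) a
  have hlow : ∀ a t, 0 ≤ t → lo a ≤ s t a := by
    intro a t ht
    refine lower_fence' (σ := fun τ => s τ a) (D := fun τ => F τ (cl (s τ)) a) (T := t + 1)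
      le_rfl (fun τ hτ _ => hcoord a τ hτ) (by rw [hs0']; exact hs0.1 a) ?_ t ht (by linarith)
    intro τ _ _ heq
    refine hin_lo τ _ (hclmem _) a ?_
    rw [hcl]
    have heq' : s τ a = lo a := heq
    rw [heq', min_eq_right (hlohi a), max_self]
  have hupp : ∀ a t, 0 ≤ t → s t a ≤ hi a := by
    intro a t ht
    refine upper_fence' (σ := fun τ => s τ a) (D := fun τ => F τ (cl (s τ)) a) (T := t + 1)
      le_rfl (fun τ hτ _ => hcoord a τ hτ) (by rw [hs0']; exact hs0.2 a) ?_ t ht (by linarith)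
    intro τ _ _ heq
    refine hin_hi τ _ (hclmem _) a ?_
    rw [hcl]
    have heq' : s τ a = hi a := heq
    rw [heq', min_self, max_eq_right (hlohi a)]
  refine ⟨s, hs0', fun t ht => ?_⟩
  have hmem : s t ∈ Icc lo hi := ⟨fun a => hlow a t ht, fun a => hupp a t ht⟩
  refine ⟨?_, hmem⟩
  have h := hs t ht
  rwa [hclid _ hmem] at h

/-- Attraction of one coordinate of a solution living in a box to the interval `[α, β]`. -/
lemma box_attract {A : Type*} [Fintype A] (F : ℝ → (A → ℝ) → (A → ℝ)) (lo hi : A → ℝ)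
    (s : ℝ → (A → ℝ))
    (hs : ∀ t, 0 ≤ t → (HasDerivWithinAt s (F t (s t)) (Ici 0) t ∧ s t ∈ Icc lo hi))
    (a : A) (α β μ : ℝ) (hμ : 0 < μ)
    (hlow : ∀ t, ∀ z ∈ Icc lo hi, z a ≤ α → μ ≤ F t z a)
    (hupp : ∀ t, ∀ z ∈ Icc lo hi, β ≤ z a → F t z a ≤ - μ) :
    ∃ T, ∀ t, T ≤ t → s t a ∈ Icc α β := by
  have hcoord : ∀ t, 0 ≤ t → HasDerivWithinAt (fun τ => s τ a) (F t (s t) a) (Ici 0) t :=
    fun t ht => hasDerivWithinAt_pi.mp (hs t ht).1 a
  obtain ⟨t1, ht1, h1⟩ := reach_lower' (σ := fun τ => s τ a) (D := fun τ => F τ (s τ) a) hcoord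
    α μ hμ (fun t ht hlt => hlow t _ (hs t ht).2 (le_of_lt hlt))
  obtain ⟨t2, ht2, h2⟩ := reach_upper' (σ := fun τ => s τ a) (D := fun τ => F τ (s τ) a) hcoord
    β μ hμ (fun t ht hlt => hupp t _ (hs t ht).2 (le_of_lt hlt))
  refine ⟨max t1 t2, fun t ht => ⟨?_, ?_⟩⟩
  · refine lower_fence' (σ := fun τ => s τ a) (D := fun τ => F τ (s τ) a) (T := t + 1) ht1
      (fun τ hτ _ => hcoord τ hτ) h1 ?_ t (le_trans (le_max_left _ _) ht) (by linarith)
    intro τ hτ _ heq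
    have h3 := hlow τ _ (hs τ (le_trans ht1 hτ)).2 (le_of_eq heq)
    linarith
  · refine upper_fence' (σ := fun τ => s τ a) (D := fun τ => F τ (s τ) a) (T := t + 1) ht2
      (fun τ hτ _ => hcoord τ hτ) h2 ?_ t (le_trans (le_max_right _ _) ht) (by linarith)
    intro τ hτ _ heq
    have h3 := hupp τ _ (hs τ (le_trans ht2 hτ)).2 (le_of_eq heq.symm)
    linarith

/-- Uniqueness of solutions of `x' = f t x` on `[0, T)` when `f t` is Lipschitz on every ball,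
uniformly in `t`. -/
lemma sol_unique_of_lipschitz_on_balls {E : Type*} [NormedAddCommGroup E] [NormedSpace ℝ E]
    (f : ℝ → E → E)
    (hf : ∀ ρ : ℝ, ∃ K : ℝ≥0, ∀ t, LipschitzOnWith K (f t) (closedBall 0 ρ))
    (x z : ℝ → E) (T : ℝ)
    (hx : ∀ t, 0 ≤ t → t < T → HasDerivWithinAt x (f t (x t)) (Ici 0) t)
    (hz : ∀ t, 0 ≤ t → t < T → HasDerivWithinAt z (f t (z t)) (Ici 0) t)
    (h0 : x 0 = z 0) : ∀ t, 0 ≤ t → t < T → x t = z t := by
  intro t ht htT
  have hxc : ContinuousOn x (Icc 0 t) := contOn_of_deriv hx le_rfl htT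
  have hzc : ContinuousOn z (Icc 0 t) := contOn_of_deriv hz le_rfl htT
  obtain ⟨C1, hC1⟩ := isCompact_Icc.exists_bound_of_continuousOn hxc
  obtain ⟨C2, hC2⟩ := isCompact_Icc.exists_bound_of_continuousOn hzc
  obtain ⟨K, hK⟩ := hf (max C1 C2)
  exact ODE_solution_unique_of_mem_Icc_right (v := f) (s := fun _ => closedBall 0 (max C1 C2))
    (K := K) (a := 0) (b := t) (fun τ _ => hK τ) hxc
    (fun τ hτ => rderiv_of_deriv hx hτ.1 (lt_trans hτ.2 htT))
    (fun τ hτ => by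
      rw [mem_closedBall_zero_iff]
      exact le_trans (hC1 τ (Ico_subset_Icc_self hτ)) (le_max_left _ _))
    hzc
    (fun τ hτ => rderiv_of_deriv hz hτ.1 (lt_trans hτ.2 htT))
    (fun τ hτ => by
      rw [mem_closedBall_zero_iff]
      exact le_trans (hC2 τ (Ico_subset_Icc_self hτ)) (le_max_right _ _))
    h0 ⟨ht, le_rfl⟩

end Vale.Agent.H19
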