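import Mathlib

/-!
# Mass-action systems of finite reaction networks: basic definitions

A finite reaction network on `d` species is given by its finite set `R` of reactions,
a reaction being a pair `(y, y')` of complexes (vectors of natural numbers) with `y ≠ y'`.
-/

namespace Vale.Agent.H19

/-- The reaction vector `y' - y` of a reaction `r = (y, y')`, as a real vector. -/
def reactionVec {d : ℕ} (r : (Fin d → ℕ) × (Fin d → ℕ)) : Fin d → ℝ :=
  fun i => (r.2 i : ℝ) - (r.1 i : ℝ)

/-- The mass-action vector field `f(x) = ∑_{y → y' ∈ R} k_{y → y'} x^y (y' - y)`,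
where `x^y = ∏ i, x i ^ y i`. -/
noncomputable def massAction {d : ℕ} (R : Finset ((Fin d → ℕ) × (Fin d → ℕ)))
    (k : (Fin d → ℕ) × (Fin d → ℕ) → ℝ) (x : Fin d → ℝ) : Fin d → ℝ :=
  ∑ r ∈ R, (k r * ∏ i, x i ^ r.1 i) • reactionVec r

/-- Weak reversibility: for every reaction `y → y'` there is a directed path of reactions
from `y'` back to `y`. -/
def WeaklyReversible {d : ℕ} (R : Finset ((Fin d → ℕ) × (Fin d → ℕ))) : Prop :=
  ∀ r ∈ R, Relation.ReflTransGen (fun y y' => (y, y') ∈ R) r.2 r.1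

/-- The stoichiometric subspace: the real span of the reaction vectors. -/
def stoichSubspace {d : ℕ} (R : Finset ((Fin d → ℕ) × (Fin d → ℕ))) :
    Submodule ℝ (Fin d → ℝ) :=
  Submodule.span ℝ (reactionVec '' (R : Set ((Fin d → ℕ) × (Fin d → ℕ))))

/-- The positive stoichiometric class of `c`: the positive vectors in `c + S`. -/
def posClass {d : ℕ} (R : Finset ((Fin d → ℕ) × (Fin d → ℕ))) (c : Fin d → ℝ) :
    Set (Fin d → ℝ) :=
  {x | (∀ i, 0 < x i) ∧ x - c ∈ stoichSubspace R}

/-- Permanence of the autonomous system `x' = f x` on the set `P`: there is a compact set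
`K ⊆ P` such that from every initial point `x0 ∈ P` there is a solution `x` on `[0, ∞)`
(one-sided derivative at `0`) which stays positive, lies in `K` from some time on, and is the
only solution starting at `x0`: every solution `z` on an interval `[0, T)` with `z 0 = x0`
agrees with `x` there. -/
def IsPermanentOn {d : ℕ} (f : (Fin d → ℝ) → (Fin d → ℝ)) (P : Set (Fin d → ℝ)) : Prop :=
  ∃ K : Set (Fin d → ℝ), IsCompact K ∧ K ⊆ P ∧ ∀ x0 ∈ P, ∃ x : ℝ → (Fin d → ℝ),
    x 0 = x0 ∧
    (∀ t, 0 ≤ t → HasDerivWithinAt x (f (x t)) (Set.Ici 0) t) ∧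
    (∀ t, 0 ≤ t → ∀ i, 0 < x t i) ∧
    (∃ T, ∀ t, T ≤ t → x t ∈ K) ∧
    (∀ (T : ℝ) (z : ℝ → (Fin d → ℝ)), z 0 = x0 →
      (∀ t, 0 ≤ t → t < T → HasDerivWithinAt z (f (z t)) (Set.Ici 0) t) →
      ∀ t, 0 ≤ t → t < T → z t = x t)

end Vale.Agent.H19
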