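import Mathlib

/-!
# Scalar autonomous ODEs `σ' = g σ` on `[0, T)`: fences, attraction, existence, uniqueness

A solution on `[0, T)` is a function `σ : ℝ → ℝ` with
`HasDerivWithinAt σ (g (σ t)) (Set.Ici 0) t` for all `0 ≤ t < T`.
-/

namespace Vale.Agent.H19

open Set Filter Topology
open scoped NNReal

lemma sol_continuousOn {g σ : ℝ → ℝ} {T : ℝ}
    (hσ : ∀ t, 0 ≤ t → t < T → HasDerivWithinAt σ (g (σ t)) (Ici 0) t)
    {a b : ℝ} (ha : 0 ≤ a) (hb : b < T) : ContinuousOn σ (Icc a b) := by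
  intro t ht
  have h := (hσ t (le_trans ha ht.1) (lt_of_le_of_lt ht.2 hb)).continuousWithinAt
  exact h.mono (fun x hx => le_trans ha hx.1)

lemma sol_right_deriv {g σ : ℝ → ℝ} {T : ℝ}
    (hσ : ∀ t, 0 ≤ t → t < T → HasDerivWithinAt σ (g (σ t)) (Ici 0) t)
    {t : ℝ} (h0 : 0 ≤ t) (hT : t < T) : HasDerivWithinAt σ (g (σ t)) (Ici t) t :=
  (hσ t h0 hT).mono (Ici_subset_Ici.mpr h0)

/-- Lower fence: a solution cannot cross downwards a level `lo` at which `g lo > 0`. -/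
lemma lower_fence {g σ : ℝ → ℝ} {T t0 lo : ℝ} (ht0 : 0 ≤ t0)
    (hσ : ∀ t, 0 ≤ t → t < T → HasDerivWithinAt σ (g (σ t)) (Ici 0) t)
    (h0 : lo ≤ σ t0) (hg : 0 < g lo) : ∀ t, t0 ≤ t → t < T → lo ≤ σ t := by
  intro t ht htT
  have hcont : ContinuousOn (fun τ => - σ τ) (Icc t0 t) := (sol_continuousOn hσ ht0 htT).neg
  have hderiv : ∀ x ∈ Ico t0 t, HasDerivWithinAt (fun τ => - σ τ) (- g (σ x)) (Ici x) x :=
    fun x hx => (sol_right_deriv hσ (le_trans ht0 hx.1) (lt_trans hx.2 htT)).neg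
  have key := image_le_of_deriv_right_lt_deriv_boundary' (f := fun τ => - σ τ)
    (f' := fun τ => - g (σ τ)) (a := t0) (b := t) (B := fun _ => - lo) (B' := fun _ => 0)
    hcont hderiv (by simpa using h0) continuousOn_const
    (fun x _ => hasDerivWithinAt_const _ _ _)
    (fun x _ hx => by
      have : σ x = lo := by simpa using hx
      rw [this]; simpa using hg)
    (x := t) ⟨ht, le_rfl⟩
  simpa using key

/-- Upper fence: a solution cannot cross upwards a level `hi` at which `g hi < 0`. -/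
lemma upper_fence {g σ : ℝ → ℝ} {T t0 hi : ℝ} (ht0 : 0 ≤ t0)
    (hσ : ∀ t, 0 ≤ t → t < T → HasDerivWithinAt σ (g (σ t)) (Ici 0) t)
    (h0 : σ t0 ≤ hi) (hg : g hi < 0) : ∀ t, t0 ≤ t → t < T → σ t ≤ hi := by
  intro t ht htT
  have hcont : ContinuousOn σ (Icc t0 t) := sol_continuousOn hσ ht0 htT
  have hderiv : ∀ x ∈ Ico t0 t, HasDerivWithinAt σ (g (σ x)) (Ici x) x :=
    fun x hx => sol_right_deriv hσ (le_trans ht0 hx.1) (lt_trans hx.2 htT)
  exact image_le_of_deriv_right_lt_deriv_boundary' (f := σ)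
    (f' := fun τ => g (σ τ)) (a := t0) (b := t) (B := fun _ => hi) (B' := fun _ => 0)
    hcont hderiv h0 continuousOn_const
    (fun x _ => hasDerivWithinAt_const _ _ _)
    (fun x _ hx => by
      have : σ x = hi := hx
      rw [this]; exact hg)
    (x := t) ⟨ht, le_rfl⟩

/-- A global solution reaches the level `α` if `g > 0` between its initial value and `α`. -/
lemma reach_lower {g σ : ℝ → ℝ} (hgc : Continuous g)
    (hσ : ∀ t, 0 ≤ t → HasDerivWithinAt σ (g (σ t)) (Ici 0) t)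
    (α : ℝ) (hpos : ∀ s, min (σ 0) α ≤ s → s ≤ α → 0 < g s) : ∃ t, 0 ≤ t ∧ α ≤ σ t := by
  by_cases h : α ≤ σ 0
  · exact ⟨0, le_rfl, h⟩
  push Not at h
  have hmin : min (σ 0) α = σ 0 := min_eq_left (le_of_lt h)
  rw [hmin] at hpos
  obtain ⟨x, hx, hxmin⟩ := (isCompact_Icc (a := σ 0) (b := α)).exists_isMinOn
    ⟨σ 0, left_mem_Icc.mpr (le_of_lt h)⟩ hgc.continuousOn
  have hm : 0 < g x := hpos x hx.1 hx.2
  by_contra hcon
  push Not at hcon
  have hσT : ∀ T : ℝ, ∀ t, 0 ≤ t → t < T → HasDerivWithinAt σ (g (σ t)) (Ici 0) t :=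
    fun T t ht _ => hσ t ht
  have hlow : ∀ t, 0 ≤ t → σ 0 ≤ σ t := fun t ht =>
    lower_fence (T := t + 1) le_rfl (hσT (t + 1)) le_rfl (hpos (σ 0) le_rfl (le_of_lt h)) t ht
      (by linarith)
  set T1 := (α - σ 0) / g x + 1 with hT1
  have hT1pos : 0 < T1 := by
    have : 0 ≤ (α - σ 0) / g x := div_nonneg (by linarith) (le_of_lt hm)
    linarith
  have key := image_le_of_deriv_right_le_deriv_boundary (f := fun t => σ 0 + g x * t)
    (f' := fun _ => g x) (a := 0) (b := T1) (B := σ) (B' := fun t => g (σ t))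
    (by fun_prop)
    (fun t _ => by
      have := ((hasDerivAt_id t).const_mul (g x)).const_add (σ 0)
      simpa using this.hasDerivWithinAt)
    (by simp)
    (sol_continuousOn (hσT (T1 + 1)) le_rfl (by linarith))
    (fun t ht => sol_right_deriv (hσT (T1 + 1)) ht.1 (by linarith [ht.2]))
    (fun t ht => hxmin ⟨hlow t ht.1, le_of_lt (hcon t ht.1)⟩)
    (x := T1) ⟨le_of_lt hT1pos, le_rfl⟩
  have h1 := hcon T1 (le_of_lt hT1pos)
  have h2 : g x * T1 = (α - σ 0) + g x := by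
    rw [hT1]; field_simp
  linarith

/-- A solution of `σ' = g σ` gives the solution `-σ` of the reflected equation. -/
lemma sol_neg {g σ : ℝ → ℝ} {T : ℝ}
    (hσ : ∀ t, 0 ≤ t → t < T → HasDerivWithinAt σ (g (σ t)) (Ici 0) t) :
    ∀ t, 0 ≤ t → t < T →
      HasDerivWithinAt (fun τ => - σ τ) ((fun s => - g (- s)) ((fun τ => - σ τ) t)) (Ici 0) t := by
  intro t ht htT
  have h := (hσ t ht htT).neg
  have e : (fun s => - g (- s)) ((fun τ => - σ τ) t) = - g (σ t) := by simp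
  rw [e]
  exact h

/-- A global solution reaches the level `β` if `g < 0` between `β` and its initial value. -/
lemma reach_upper {g σ : ℝ → ℝ} (hgc : Continuous g)
    (hσ : ∀ t, 0 ≤ t → HasDerivWithinAt σ (g (σ t)) (Ici 0) t)
    (β : ℝ) (hneg : ∀ s, β ≤ s → s ≤ max (σ 0) β → g s < 0) : ∃ t, 0 ≤ t ∧ σ t ≤ β := by
  have hσ' : ∀ t, 0 ≤ t →
      HasDerivWithinAt (fun τ => - σ τ) ((fun s => - g (- s)) ((fun τ => - σ τ) t)) (Ici 0) t :=
    fun t ht => sol_neg (T := t + 1) (fun t ht _ => hσ t ht) t ht (by linarith)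
  obtain ⟨t, ht, h⟩ := reach_lower (g := fun s => - g (- s)) (σ := fun τ => - σ τ)
    (by fun_prop) hσ' (- β) (fun s hs1 hs2 => by
      have h1 : β ≤ - s := by linarith
      have h2 : - s ≤ max (σ 0) β := by
        have hmm : min (- σ 0) (- β) = - max (σ 0) β := min_neg_neg _ _
        rw [hmm] at hs1
        linarith
      have := hneg (- s) h1 h2
      linarith)
  exact ⟨t, ht, by linarith⟩

/-- Every global solution eventually enters and stays in `[α, β]`, provided `g > 0` between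
the initial value and `α` and at `α`, and `g < 0` between `β` and the initial value and at `β`. -/
lemma eventually_mem_Icc {g σ : ℝ → ℝ} (hgc : Continuous g)
    (hσ : ∀ t, 0 ≤ t → HasDerivWithinAt σ (g (σ t)) (Ici 0) t)
    (α β : ℝ) (hpos : ∀ s, min (σ 0) α ≤ s → s ≤ α → 0 < g s)
    (hneg : ∀ s, β ≤ s → s ≤ max (σ 0) β → g s < 0) :
    ∃ T, ∀ t, T ≤ t → σ t ∈ Icc α β := by
  obtain ⟨t1, ht1, h1⟩ := reach_lower hgc hσ α hpos
  obtain ⟨t2, ht2, h2⟩ := reach_upper hgc hσ β hneg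
  refine ⟨max t1 t2, fun t ht => ⟨?_, ?_⟩⟩
  · exact lower_fence (T := t + 1) ht1 (fun t ht _ => hσ t ht) h1
      (hpos α (min_le_right _ _) le_rfl) t (le_trans (le_max_left _ _) ht) (by linarith)
  · exact upper_fence (T := t + 1) ht2 (fun t ht _ => hσ t ht) h2
      (hneg β le_rfl (le_max_right _ _)) t (le_trans (le_max_right _ _) ht) (by linarith)


/-- Global forward existence for a bounded, globally Lipschitz autonomous scalar equation. -/
lemma exists_global_sol_of_lipschitz_bounded (G : ℝ → ℝ) (K L : ℝ≥0) (hK : LipschitzWith K G)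
    (hL : ∀ x, ‖G x‖ ≤ L) (s0 : ℝ) :
    ∃ σ : ℝ → ℝ, σ 0 = s0 ∧ ∀ t, 0 ≤ t → HasDerivWithinAt σ (G (σ t)) (Ici 0) t := by
  have hmem : ∀ n : ℕ, (0 : ℝ) ∈ Icc (0 : ℝ) (n + 1) := fun n =>
    ⟨le_rfl, by positivity⟩
  have hpl : ∀ n : ℕ, IsPicardLindelof (fun _ => G) (tmin := 0) (tmax := n + 1)
      ⟨0, hmem n⟩ s0 (L * ((n : ℝ≥0) + 1)) 0 L K := fun n =>
    IsPicardLindelof.of_time_independent (fun x _ => hL x) (hK.lipschitzOnWith)
      (by
        have h1 : max ((n : ℝ) + 1 - 0) (0 - 0) = (n : ℝ) + 1 := by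
          rw [sub_zero, sub_zero]; exact max_eq_left (by positivity)
        simp only [NNReal.coe_mul, NNReal.coe_add, NNReal.coe_natCast, NNReal.coe_one,
          NNReal.coe_zero]
        rw [h1]
        simp)
  have hex : ∀ n : ℕ, ∃ σ : ℝ → ℝ, σ 0 = s0 ∧
      ∀ t ∈ Icc (0 : ℝ) (n + 1), HasDerivWithinAt σ (G (σ t)) (Icc (0 : ℝ) (n + 1)) t := fun n =>
    (hpl n).exists_eq_forall_mem_Icc_hasDerivWithinAt₀
  choose σ hσ0 hσ using hex
  -- agreement of the solutions on common intervals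
  have hagree : ∀ n m : ℕ, n ≤ m → ∀ t ∈ Icc (0 : ℝ) (n + 1), σ n t = σ m t := by
    intro n m hnm
    have hsub : Icc (0 : ℝ) (n + 1) ⊆ Icc (0 : ℝ) (m + 1) := by
      apply Icc_subset_Icc_right
      have : (n : ℝ) ≤ m := by exact_mod_cast hnm
      linarith
    apply ODE_solution_unique (v := fun _ => G) (K := K) (fun _ => hK)
    · exact fun t ht => (hσ n t ht).continuousWithinAt
    · exact fun t ht => (hσ n t (Ico_subset_Icc_self ht)).mono_of_mem_nhdsWithin
        (Icc_mem_nhdsGE_of_mem ht)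
    · exact fun t ht => ((hσ m t (hsub ht)).continuousWithinAt).mono hsub
    · exact fun t ht => (hσ m t (hsub (Ico_subset_Icc_self ht))).mono_of_mem_nhdsWithin
        (Icc_mem_nhdsGE_of_mem ⟨ht.1, lt_of_lt_of_le ht.2 (hsub (right_mem_Icc.mpr
          (by positivity))).2⟩)
    · rw [hσ0 n, hσ0 m]
  -- the glued solution
  have hceil : ∀ t : ℝ, 0 ≤ t → t ∈ Icc (0 : ℝ) ((⌈t⌉₊ : ℝ) + 1) := fun t ht =>
    ⟨ht, by have := Nat.le_ceil t; linarith⟩
  refine ⟨fun t => σ ⌈t⌉₊ t, ?_, ?_⟩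
  · simp [hσ0]
  · intro t ht
    set N := ⌈t⌉₊ + 1 with hN
    have htN : t ∈ Ico (0 : ℝ) ((N : ℝ) + 1) := by
      refine ⟨ht, ?_⟩
      have := Nat.le_ceil t
      rw [hN]; push_cast; linarith
    have hev : (fun t' => σ ⌈t'⌉₊ t') =ᶠ[𝓝[Ici 0] t] σ N := by
      have hmem2 : Ici (0 : ℝ) ∩ Iio (t + 1) ∈ 𝓝[Ici 0] t :=
        inter_mem_nhdsWithin _ (Iio_mem_nhds (by linarith))
      filter_upwards [hmem2] with t' ht'
      have h1 : ⌈t'⌉₊ ≤ N := by
        rw [hN]
        apply Nat.ceil_le.mpr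
        have := Nat.le_ceil t
        push_cast
        have h3 : t' < t + 1 := ht'.2
        linarith
      exact hagree _ _ h1 t' (hceil t' ht'.1)
    have hval : σ ⌈t⌉₊ t = σ N t := hagree _ _ (by rw [hN]; exact Nat.le_succ _) t (hceil t ht)
    have hd : HasDerivWithinAt (σ N) (G (σ N t)) (Ici 0) t :=
      (hσ N t (Ico_subset_Icc_self htN)).mono_of_mem_nhdsWithin (by
        rw [← Ici_inter_Iic]
        exact inter_mem_nhdsWithin _ (Iic_mem_nhds htN.2))
    simp only [hval]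
    exact hd.congr_of_eventuallyEq hev hval

/-- Global forward existence in a trapping interval `[lo, hi]` with `g lo > 0 > g hi`. -/
lemma exists_global_sol_of_trap (g : ℝ → ℝ) (lo hi s0 : ℝ) (h1 : lo ≤ s0) (h2 : s0 ≤ hi)
    (K : ℝ≥0) (hK : LipschitzOnWith K g (Icc lo hi)) (hlo : 0 < g lo) (hhi : g hi < 0) :
    ∃ σ : ℝ → ℝ, σ 0 = s0 ∧
      ∀ t, 0 ≤ t → (HasDerivWithinAt σ (g (σ t)) (Ici 0) t ∧ σ t ∈ Icc lo hi) := by
  have hlohi : lo ≤ hi := le_trans h1 h2
  have hclamp : ∀ s : ℝ, max lo (min hi s) ∈ Icc lo hi := fun s =>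
    ⟨le_max_left _ _, max_le hlohi (min_le_left _ _)⟩
  have hclampL : LipschitzWith 1 (fun s : ℝ => max lo (min hi s)) :=
    (LipschitzWith.id.const_min hi).const_max lo
  set G : ℝ → ℝ := fun s => g (max lo (min hi s)) with hG
  have hGK : LipschitzWith K G := by
    apply LipschitzWith.of_dist_le_mul
    intro x y
    calc dist (G x) (G y) ≤ K * dist (max lo (min hi x)) (max lo (min hi y)) :=
          hK.dist_le_mul _ (hclamp x) _ (hclamp y)
      _ ≤ K * dist x y := by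
          apply mul_le_mul_of_nonneg_left _ K.2
          simpa using hclampL.dist_le_mul x y
  have hGL : ∀ x, ‖G x‖ ≤ ((⟨|g lo| + K * (hi - lo), by
      have := mul_nonneg K.2 (sub_nonneg.mpr hlohi); positivity⟩ : ℝ≥0) : ℝ) := by
    intro x
    have hd := hK.dist_le_mul _ (hclamp x) lo (left_mem_Icc.mpr hlohi)
    rw [Real.dist_eq] at hd
    have hd2 : |max lo (min hi x) - lo| ≤ hi - lo := by
      rw [Real.dist_eq] at *
      have := hclamp x
      rw [abs_of_nonneg (by linarith [this.1])]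
      linarith [this.2]
    have hd3 : |g (max lo (min hi x)) - g lo| ≤ K * (hi - lo) :=
      le_trans hd (mul_le_mul_of_nonneg_left hd2 K.2)
    rw [Real.norm_eq_abs]
    have := abs_sub_abs_le_abs_sub (g (max lo (min hi x))) (g lo)
    simp only [hG]
    linarith
  obtain ⟨σ, hσ0, hσ⟩ := exists_global_sol_of_lipschitz_bounded G K _ hGK hGL s0
  have hGlo : G lo = g lo := by
    simp only [hG]; rw [min_eq_right hlohi, max_self]
  have hGhi : G hi = g hi := by
    simp only [hG]; rw [min_self, max_eq_right hlohi]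
  have hσT : ∀ T : ℝ, ∀ t, 0 ≤ t → t < T → HasDerivWithinAt σ (G (σ t)) (Ici 0) t :=
    fun T t ht _ => hσ t ht
  have hmem : ∀ t, 0 ≤ t → σ t ∈ Icc lo hi := fun t ht =>
    ⟨lower_fence (T := t + 1) le_rfl (hσT (t + 1)) (by rw [hσ0]; exact h1)
        (by rw [hGlo]; exact hlo) t ht (by linarith),
      upper_fence (T := t + 1) le_rfl (hσT (t + 1)) (by rw [hσ0]; exact h2)
        (by rw [hGhi]; exact hhi) t ht (by linarith)⟩
  refine ⟨σ, hσ0, fun t ht => ⟨?_, hmem t ht⟩⟩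
  have hGg : G (σ t) = g (σ t) := by
    have := hmem t ht
    simp only [hG]; rw [min_eq_right this.2, max_eq_right this.1]
  rw [← hGg]
  exact hσ t ht

/-- Uniqueness of solutions staying in an interval on which `g` is Lipschitz. -/
lemma sol_unique_of_trap (g : ℝ → ℝ) (lo hi : ℝ) (K : ℝ≥0)
    (hK : LipschitzOnWith K g (Icc lo hi)) (σ τ : ℝ → ℝ) (T : ℝ)
    (hσ : ∀ t, 0 ≤ t → t < T → (HasDerivWithinAt σ (g (σ t)) (Ici 0) t ∧ σ t ∈ Icc lo hi))
    (hτ : ∀ t, 0 ≤ t → t < T → (HasDerivWithinAt τ (g (τ t)) (Ici 0) t ∧ τ t ∈ Icc lo hi))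
    (h0 : σ 0 = τ 0) : ∀ t, 0 ≤ t → t < T → σ t = τ t := by
  intro t ht htT
  have hσ' : ∀ t, 0 ≤ t → t < T → HasDerivWithinAt σ (g (σ t)) (Ici 0) t :=
    fun t h1 h2 => (hσ t h1 h2).1
  have hτ' : ∀ t, 0 ≤ t → t < T → HasDerivWithinAt τ (g (τ t)) (Ici 0) t :=
    fun t h1 h2 => (hτ t h1 h2).1
  exact ODE_solution_unique_of_mem_Icc_right (v := fun _ => g) (s := fun _ => Icc lo hi)
    (K := K) (a := 0) (b := t) (fun _ _ => hK)
    (sol_continuousOn hσ' le_rfl htT)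
    (fun x hx => sol_right_deriv hσ' hx.1 (lt_trans hx.2 htT))
    (fun x hx => (hσ x hx.1 (lt_trans hx.2 htT)).2)
    (sol_continuousOn hτ' le_rfl htT)
    (fun x hx => sol_right_deriv hτ' hx.1 (lt_trans hx.2 htT))
    (fun x hx => (hτ x hx.1 (lt_trans hx.2 htT)).2)
    h0 ⟨ht, le_rfl⟩

end Vale.Agent.H19
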