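import Mathlib
import Vale.Agent.H19.MassAction

/-!
# Sign of the leading part of a mass-action polynomial near an end of a one-dimensional class
-/

namespace Vale.Agent.H19

open Filter Topology

/-- If the coefficients of the terms of least weight are positive, a finite sum
`∑ a r * θ ^ w r * H r θ` is positive for small `θ > 0`. -/
lemma sum_pos_near_zero {ι : Type*} (R : Finset ι) (hR : R.Nonempty)
    (a : ι → ℝ) (w : ι → ℤ) (H : ι → ℝ → ℝ) (L : ι → ℝ)
    (hL : ∀ r ∈ R, 0 < L r)
    (hH : ∀ r ∈ R, Tendsto (H r) (𝓝[>] 0) (𝓝 (L r)))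
    (hmin : ∀ r ∈ R, (∀ r' ∈ R, w r ≤ w r') → 0 < a r) :
    ∃ ε > 0, ∀ θ, 0 < θ → θ < ε → 0 < ∑ r ∈ R, a r * θ ^ (w r) * H r θ := by
  classical
  obtain ⟨r0, hr0, hr0min⟩ := Finset.exists_min_image R w hR
  set w0 := w r0 with hw0
  -- the normalized sum
  have key : Tendsto (fun θ : ℝ => ∑ r ∈ R, a r * θ ^ (w r - w0) * H r θ) (𝓝[>] 0)
      (𝓝 (∑ r ∈ R, a r * (0 : ℝ) ^ (w r - w0) * L r)) := by
    apply tendsto_finsetSum
    intro r hr
    have h1 : Tendsto (fun θ : ℝ => θ ^ (w r - w0)) (𝓝[>] 0) (𝓝 ((0 : ℝ) ^ (w r - w0))) := by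
      have hc : ContinuousAt (fun θ : ℝ => θ ^ (w r - w0)) 0 :=
        continuousAt_zpow₀ 0 (w r - w0) (Or.inr (sub_nonneg.mpr (hr0min r hr)))
      exact hc.tendsto.mono_left nhdsWithin_le_nhds
    exact (tendsto_const_nhds.mul h1).mul (hH r hr)
  have hpos : 0 < ∑ r ∈ R, a r * (0 : ℝ) ^ (w r - w0) * L r := by
    apply Finset.sum_pos'
    · intro r hr
      by_cases h : w r = w0
      · have : 0 < a r := hmin r hr (fun r' hr' => by rw [h]; exact hr0min r' hr')
        simp [h]
        exact le_of_lt (mul_pos this (hL r hr))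
      · have : w r - w0 ≠ 0 := sub_ne_zero.mpr h
        simp [zero_zpow _ this]
    · refine ⟨r0, hr0, ?_⟩
      have : 0 < a r0 := hmin r0 hr0 hr0min
      have h0 : w r0 - w0 = 0 := by rw [hw0]; exact sub_self _
      rw [h0, zpow_zero, mul_one]
      exact mul_pos this (hL r0 hr0)
  have hev : ∀ᶠ θ in 𝓝[>] (0 : ℝ), 0 < ∑ r ∈ R, a r * θ ^ (w r - w0) * H r θ :=
    key.eventually (lt_mem_nhds hpos)
  rw [eventually_nhdsWithin_iff, Metric.eventually_nhds_iff] at hev
  obtain ⟨ε, hε, hev⟩ := hev
  refine ⟨ε, hε, fun θ hθ hθε => ?_⟩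
  have h2 := hev (y := θ) (by simpa [Real.dist_eq, abs_of_pos hθ] using hθε) hθ
  have h3 : ∑ r ∈ R, a r * θ ^ (w r) * H r θ
      = θ ^ w0 * ∑ r ∈ R, a r * θ ^ (w r - w0) * H r θ := by
    rw [Finset.mul_sum]
    apply Finset.sum_congr rfl
    intro r _
    rw [zpow_sub₀ (ne_of_gt hθ)]
    field_simp
  rw [h3]
  exact mul_pos (zpow_pos hθ _) h2


lemma zpow_finset_sum {ι : Type*} (s : Finset ι) (f : ι → ℤ) {θ : ℝ} (hθ : θ ≠ 0) :
    θ ^ (∑ i ∈ s, f i) = ∏ i ∈ s, θ ^ (f i) := by
  classical
  induction s using Finset.induction_on with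
  | empty => simp
  | insert a s ha ih => rw [Finset.sum_insert ha, Finset.prod_insert ha, zpow_add₀ hθ, ih]

/-- Monomial version: along a curve with coordinates `θ ^ e i * u i θ`, where `u i` has a
positive limit at `0⁺`, a signed sum of monomials is positive for small `θ > 0` as soon as
the coefficients of the monomials of least weight `∑ i, e i * y i` are positive. -/
lemma monomial_sum_pos_near_zero {d : ℕ} (R : Finset ((Fin d → ℕ) × (Fin d → ℕ)))
    (hR : R.Nonempty) (a : (Fin d → ℕ) × (Fin d → ℕ) → ℝ)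
    (e : Fin d → ℤ) (u : Fin d → ℝ → ℝ) (ustar : Fin d → ℝ) (hustar : ∀ i, 0 < ustar i)
    (hu : ∀ i, Tendsto (u i) (𝓝[>] 0) (𝓝 (ustar i)))
    (hmin : ∀ r ∈ R, (∀ r' ∈ R, ∑ i, e i * (r.1 i : ℤ) ≤ ∑ i, e i * (r'.1 i : ℤ)) → 0 < a r) :
    ∃ ε > 0, ∀ θ, 0 < θ → θ < ε →
      0 < ∑ r ∈ R, a r * ∏ i, (θ ^ (e i) * u i θ) ^ (r.1 i) := by
  obtain ⟨ε, hε, h⟩ := sum_pos_near_zero R hR a (fun r => ∑ i, e i * (r.1 i : ℤ))
    (fun r θ => ∏ i, (u i θ) ^ (r.1 i)) (fun r => ∏ i, (ustar i) ^ (r.1 i))
    (fun r _ => Finset.prod_pos (fun i _ => pow_pos (hustar i) _))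
    (fun r _ => tendsto_finsetProd _ (fun i _ => (hu i).pow _))
    hmin
  refine ⟨ε, hε, fun θ hθ hθε => ?_⟩
  have h1 := h θ hθ hθε
  have h2 : ∀ r ∈ R, a r * ∏ i, (θ ^ (e i) * u i θ) ^ (r.1 i)
      = a r * θ ^ (∑ i, e i * (r.1 i : ℤ)) * ∏ i, (u i θ) ^ (r.1 i) := by
    intro r _
    rw [mul_assoc]
    congr 1
    simp_rw [mul_pow]
    rw [Finset.prod_mul_distrib]
    congr 1
    rw [zpow_finset_sum _ _ (ne_of_gt hθ)]
    apply Finset.prod_congr rfl
    intro i _
    rw [zpow_mul, zpow_natCast]
  rw [Finset.sum_congr rfl h2]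
  exact h1

/-- In a weakly reversible network all of whose reaction vectors are multiples `lam r • v` of
one vector `v`, a reaction whose source complex has least weight `∑ i, e i * y i`, for a weight
`e` with `e ⬝ v > 0`, has `lam r > 0`. -/
lemma lam_pos_of_minimal {d : ℕ} (R : Finset ((Fin d → ℕ) × (Fin d → ℕ)))
    (hne : ∀ r ∈ R, r.1 ≠ r.2) (hwr : WeaklyReversible R)
    (v : Fin d → ℝ) (lam : (Fin d → ℕ) × (Fin d → ℕ) → ℝ)
    (hv : ∀ r ∈ R, reactionVec r = lam r • v)
    (e : Fin d → ℤ) (hev : 0 < ∑ i, (e i : ℝ) * v i)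
    (r : (Fin d → ℕ) × (Fin d → ℕ)) (hr : r ∈ R)
    (hmin : ∀ r' ∈ R, ∑ i, e i * (r.1 i : ℤ) ≤ ∑ i, e i * (r'.1 i : ℤ)) : 0 < lam r := by
  by_contra hcon
  push Not at hcon
  obtain ⟨y'', hy''⟩ : ∃ y'', (r.2, y'') ∈ R := by
    rcases (hwr r hr).cases_head with h | ⟨c, hc, _⟩
    · exact absurd h.symm (hne r hr)
    · exact ⟨c, hc⟩
  have h1 := hmin (r.2, y'') hy''
  have h2 : ∑ i, (e i : ℝ) * ((r.2 i : ℝ) - (r.1 i : ℝ)) = lam r * ∑ i, (e i : ℝ) * v i := by
    rw [Finset.mul_sum]
    apply Finset.sum_congr rfl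
    intro i _
    have := congrFun (hv r hr) i
    simp only [reactionVec, Pi.smul_apply, smul_eq_mul] at this
    rw [this]; ring
  have h3 : lam r ≠ 0 := by
    intro h0
    apply hne r hr
    have hz := hv r hr
    rw [h0, zero_smul] at hz
    funext i
    have := congrFun hz i
    simp only [reactionVec, Pi.zero_apply] at this
    have h' : (r.2 i : ℝ) = (r.1 i : ℝ) := by linarith
    exact_mod_cast h'.symm
  have h4 : lam r < 0 := lt_of_le_of_ne hcon h3
  have h5 : ∑ i, (e i : ℝ) * ((r.2 i : ℝ) - (r.1 i : ℝ)) < 0 := by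
    rw [h2]; exact mul_neg_of_neg_of_pos h4 hev
  have h6 : ((∑ i, e i * (r.1 i : ℤ) : ℤ) : ℝ) ≤ ((∑ i, e i * (r.2 i : ℤ) : ℤ) : ℝ) := by
    exact_mod_cast h1
  push_cast at h6
  have h7 : ∑ i, (e i : ℝ) * ((r.2 i : ℝ) - (r.1 i : ℝ))
      = ∑ i, (e i : ℝ) * (r.2 i : ℝ) - ∑ i, (e i : ℝ) * (r.1 i : ℝ) := by
    rw [← Finset.sum_sub_distrib]
    apply Finset.sum_congr rfl
    intro i _; ring
  linarith


/-- The sign of the scalar mass-action rate near the lower end of a one-dimensional positive
class `{c + s • v}`: it is positive for all admissible `s` below some admissible `α`. -/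
lemma left_end {d : ℕ} (R : Finset ((Fin d → ℕ) × (Fin d → ℕ))) (hR : R.Nonempty)
    (hne : ∀ r ∈ R, r.1 ≠ r.2) (hwr : WeaklyReversible R)
    (v : Fin d → ℝ) (hv0 : v ≠ 0) (lam : (Fin d → ℕ) × (Fin d → ℕ) → ℝ)
    (hv : ∀ r ∈ R, reactionVec r = lam r • v)
    (k : (Fin d → ℕ) × (Fin d → ℕ) → ℝ) (hk : ∀ r ∈ R, 0 < k r)
    (c : Fin d → ℝ) (hc : ∀ i, 0 < c i) :
    ∃ α, (∀ i, 0 < c i + α * v i) ∧ ∀ s, s ≤ α → (∀ i, 0 < c i + s * v i) →
      0 < ∑ r ∈ R, (k r * lam r) * ∏ i, (c i + s * v i) ^ (r.1 i) := by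
  classical
  by_cases hpos : ∃ i, 0 < v i
  · -- some coordinate of `v` is positive: the lower end is finite
    obtain ⟨i1, hi1⟩ := hpos
    let S : Finset (Fin d) := Finset.univ.filter (fun i => 0 < v i)
    have hS : S.Nonempty := ⟨i1, by simp [S, hi1]⟩
    obtain ⟨i0, hi0S, hi0max⟩ := Finset.exists_max_image S (fun i => - c i / v i) hS
    have hvi0 : 0 < v i0 := by simpa [S] using hi0S
    set a := - c i0 / v i0 with ha
    have ha_neg : a < 0 := by
      rw [ha]; exact div_neg_of_neg_of_pos (neg_lt_zero.mpr (hc i0)) hvi0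
    have hnonneg : ∀ i, 0 ≤ c i + a * v i := by
      intro i
      by_cases hvi : 0 < v i
      · have h1 : - c i / v i ≤ a := hi0max i (by simp [S, hvi])
        have h2 : - c i / v i * v i = - c i := by field_simp
        nlinarith
      · push Not at hvi
        have := mul_nonneg_of_nonpos_of_nonpos (le_of_lt ha_neg) hvi
        linarith [hc i]
    have hzero : c i0 + a * v i0 = 0 := by
      rw [ha]; field_simp; ring
    let Z : Fin d → Prop := fun i => c i + a * v i = 0
    have hZpos : ∀ i, Z i → 0 < v i := by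
      intro i hi
      by_contra hvi
      push Not at hvi
      have h1 := mul_nonneg_of_nonpos_of_nonpos (le_of_lt ha_neg) hvi
      have h2 : c i + a * v i > 0 := by linarith [hc i]
      exact absurd hi (ne_of_gt h2)
    let e : Fin d → ℤ := fun i => if Z i then 1 else 0
    let u : Fin d → ℝ → ℝ := fun i θ => if Z i then v i else c i + (a + θ) * v i
    let ustar : Fin d → ℝ := fun i => if Z i then v i else c i + a * v i
    have hustar : ∀ i, 0 < ustar i := by
      intro i
      by_cases hi : Z i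
      · simp only [ustar, hi, if_true]; exact hZpos i hi
      · simp only [ustar, hi, if_false]
        exact lt_of_le_of_ne (hnonneg i) (Ne.symm hi)
    have hu : ∀ i, Tendsto (u i) (𝓝[>] 0) (𝓝 (ustar i)) := by
      intro i
      by_cases hi : Z i
      · simp only [u, ustar, hi, if_true]; exact tendsto_const_nhds
      · simp only [u, ustar, hi, if_false]
        have hcont : Continuous (fun θ : ℝ => c i + (a + θ) * v i) := by fun_prop
        have h := hcont.tendsto 0
        simp only [add_zero] at h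
        exact h.mono_left nhdsWithin_le_nhds
    have hev : 0 < ∑ i, (e i : ℝ) * v i := by
      apply Finset.sum_pos'
      · intro i _
        by_cases hi : Z i
        · simp only [e, hi, if_true]; simpa using le_of_lt (hZpos i hi)
        · simp [e, hi]
      · refine ⟨i0, Finset.mem_univ _, ?_⟩
        have : Z i0 := hzero
        simp only [e, this, if_true]; simpa using hvi0
    obtain ⟨ε, hε, h⟩ := monomial_sum_pos_near_zero R hR (fun r => k r * lam r) e u ustar
      hustar hu
      (fun r hr hmin => mul_pos (hk r hr) (lam_pos_of_minimal R hne hwr v lam hv e hev r hr hmin))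
    refine ⟨min (a + ε / 2) 0, ?_, ?_⟩
    · intro i
      by_cases hvi : 0 < v i
      · have h1 : a < min (a + ε / 2) 0 := lt_min (by linarith) ha_neg
        have h2 := hnonneg i
        nlinarith
      · push Not at hvi
        have h1 : min (a + ε / 2) 0 ≤ 0 := min_le_right _ _
        have h2 := mul_nonneg_of_nonpos_of_nonpos h1 hvi
        linarith [hc i]
    · intro s hs hspos
      have hsa : a < s := by
        have h1 := hspos i0
        by_contra hcon
        push Not at hcon
        nlinarith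
      have hθ : 0 < s - a := by linarith
      have hθε : s - a < ε := by
        have : s ≤ a + ε / 2 := le_trans hs (min_le_left _ _)
        linarith
      have h1 := h (s - a) hθ hθε
      have h2 : ∀ r ∈ R, (k r * lam r) * ∏ i, (c i + s * v i) ^ (r.1 i)
          = (k r * lam r) * ∏ i, ((s - a) ^ (e i) * u i (s - a)) ^ (r.1 i) := by
        intro r _
        congr 1
        apply Finset.prod_congr rfl
        intro i _
        congr 1
        by_cases hi : Z i
        · simp only [e, u, hi, if_true, zpow_one]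
          have : c i + a * v i = 0 := hi
          linarith
        · simp only [e, u, hi, if_false, zpow_zero, one_mul]
          ring
      rw [Finset.sum_congr rfl h2]
      exact h1
  · -- no coordinate of `v` is positive: the lower end is at minus infinity
    push Not at hpos
    let e : Fin d → ℤ := fun i => if v i < 0 then -1 else 0
    let u : Fin d → ℝ → ℝ := fun i θ => if v i < 0 then - v i + c i * θ else c i
    let ustar : Fin d → ℝ := fun i => if v i < 0 then - v i else c i
    have hustar : ∀ i, 0 < ustar i := by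
      intro i
      by_cases hi : v i < 0
      · simp only [ustar, hi, if_true]; linarith
      · simp only [ustar, hi, if_false]; exact hc i
    have hu : ∀ i, Tendsto (u i) (𝓝[>] 0) (𝓝 (ustar i)) := by
      intro i
      by_cases hi : v i < 0
      · simp only [u, ustar, hi, if_true]
        have hcont : Continuous (fun θ : ℝ => - v i + c i * θ) := by fun_prop
        have h := hcont.tendsto 0
        simp only [mul_zero, add_zero] at h
        exact h.mono_left nhdsWithin_le_nhds
      · simp only [u, ustar, hi, if_false]; exact tendsto_const_nhds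
    have hev : 0 < ∑ i, (e i : ℝ) * v i := by
      obtain ⟨j, hj⟩ : ∃ j, v j ≠ 0 := by
        by_contra hall
        push Not at hall
        exact hv0 (funext hall)
      have hj' : v j < 0 := lt_of_le_of_ne (hpos j) hj
      apply Finset.sum_pos'
      · intro i _
        by_cases hi : v i < 0
        · simp only [e, hi, if_true]; push_cast; nlinarith
        · simp [e, hi]
      · refine ⟨j, Finset.mem_univ _, ?_⟩
        simp only [e, hj', if_true]; push_cast; nlinarith
    obtain ⟨ε, hε, h⟩ := monomial_sum_pos_near_zero R hR (fun r => k r * lam r) e u ustar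
      hustar hu
      (fun r hr hmin => mul_pos (hk r hr) (lam_pos_of_minimal R hne hwr v lam hv e hev r hr hmin))
    have h2ε : 0 < 2 / ε := div_pos two_pos hε
    refine ⟨- (2 / ε), ?_, ?_⟩
    · intro i
      have : 0 ≤ - (2 / ε) * v i :=
        mul_nonneg_of_nonpos_of_nonpos (by linarith) (hpos i)
      linarith [hc i]
    · intro s hs _
      have hsneg : s < 0 := lt_of_le_of_lt hs (by linarith)
      have hθ : 0 < - (1 / s) := by
        have : 1 / s < 0 := one_div_neg.mpr hsneg
        linarith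
      have hθε : - (1 / s) < ε := by
        have h1 : 2 / ε ≤ - s := by linarith
        have h2 : 0 < - s := by linarith
        have h3 : - (1 / s) = 1 / (- s) := by field_simp
        rw [h3, div_lt_iff₀ h2]
        have h4 : ε * (2 / ε) = 2 := by field_simp
        nlinarith
      have h1 := h (- (1 / s)) hθ hθε
      have h2 : ∀ r ∈ R, (k r * lam r) * ∏ i, (c i + s * v i) ^ (r.1 i)
          = (k r * lam r) * ∏ i, ((- (1 / s)) ^ (e i) * u i (- (1 / s))) ^ (r.1 i) := by
        intro r _
        congr 1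
        apply Finset.prod_congr rfl
        intro i _
        congr 1
        by_cases hi : v i < 0
        · simp only [e, u, hi, if_true]
          rw [zpow_neg_one]
          have hs0 : s ≠ 0 := ne_of_lt hsneg
          field_simp
          ring
        · have hvi : v i = 0 := le_antisymm (hpos i) (not_lt.mp hi)
          simp only [e, u, hi, if_false, zpow_zero, one_mul]
          rw [hvi, mul_zero, add_zero]
      rw [Finset.sum_congr rfl h2]
      exact h1

end Vale.Agent.H19
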