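import Mathlib
import Vale.Agent.H19.MassAction
import Vale.Agent.H19.SignLemma
import Vale.Agent.H19.Scalar

/-!
# Permanence of weakly reversible mass-action systems with one-dimensional stoichiometric subspace
-/

namespace Vale.Agent.H19

open Set Filter Topology
open scoped NNReal

/-- The scalar rate of the mass-action system along the line `c + s • v`, when every reaction
vector is the multiple `lam r • v` of `v`. -/
noncomputable def scalarRate {d : ℕ} (R : Finset ((Fin d → ℕ) × (Fin d → ℕ)))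
    (k lam : (Fin d → ℕ) × (Fin d → ℕ) → ℝ) (c v : Fin d → ℝ) (s : ℝ) : ℝ :=
  ∑ r ∈ R, (k r * lam r) * ∏ i, (c i + s * v i) ^ (r.1 i)

lemma scalarRate_contDiff {d : ℕ} (R : Finset ((Fin d → ℕ) × (Fin d → ℕ)))
    (k lam : (Fin d → ℕ) × (Fin d → ℕ) → ℝ) (c v : Fin d → ℝ) :
    ContDiff ℝ 1 (scalarRate R k lam c v) := by
  unfold scalarRate
  apply ContDiff.sum
  intro r _
  apply ContDiff.mul contDiff_const
  apply contDiff_prod
  intro i _
  apply ContDiff.pow
  exact contDiff_const.add (contDiff_id.mul contDiff_const)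

/-- Reduction of a solution of the mass-action system starting on the line `c + ℝ v` to a
solution of the scalar equation. -/
lemma reduce_sol {d : ℕ} (R : Finset ((Fin d → ℕ) × (Fin d → ℕ)))
    (k lam : (Fin d → ℕ) × (Fin d → ℕ) → ℝ) (v : Fin d → ℝ)
    (hv : ∀ r ∈ R, reactionVec r = lam r • v)
    (j : Fin d) (hj : v j ≠ 0) (c : Fin d → ℝ) (s0 : ℝ) (z : ℝ → Fin d → ℝ) (T : ℝ)
    (hz0 : z 0 = c + s0 • v)
    (hz : ∀ t, 0 ≤ t → t < T → HasDerivWithinAt z (massAction R k (z t)) (Ici 0) t) :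
    ∃ σ : ℝ → ℝ, σ 0 = s0 ∧ (∀ t, 0 ≤ t → t < T → z t = c + σ t • v) ∧
      (∀ t, 0 ≤ t → t < T →
        HasDerivWithinAt σ (scalarRate R k lam c v (σ t)) (Ici 0) t) := by
  obtain ⟨Gz, hGz⟩ : ∃ Gz : ℝ → ℝ,
      ∀ t, Gz t = ∑ r ∈ R, (k r * lam r) * ∏ i, (z t i) ^ (r.1 i) := ⟨_, fun _ => rfl⟩
  have hma : ∀ t, massAction R k (z t) = Gz t • v := by
    intro t
    rw [hGz]
    unfold massAction
    rw [Finset.sum_smul]
    apply Finset.sum_congr rfl
    intro r hr
    rw [hv r hr, smul_smul]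
    congr 1
    ring
  obtain ⟨σ, hσdef⟩ : ∃ σ : ℝ → ℝ, ∀ t, σ t = (z t j - c j) / v j := ⟨_, fun _ => rfl⟩
  have hσ0 : σ 0 = s0 := by
    rw [hσdef, hz0]
    simp only [Pi.add_apply, Pi.smul_apply, smul_eq_mul]
    field_simp
    ring
  have hσd : ∀ t, 0 ≤ t → t < T → HasDerivWithinAt σ (Gz t) (Ici 0) t := by
    intro t ht htT
    have h1 := hasDerivWithinAt_pi.mp (hz t ht htT) j
    rw [hma t] at h1
    simp only [Pi.smul_apply, smul_eq_mul] at h1
    have h2 := (h1.sub_const (c j)).div_const (v j)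
    have e : Gz t * v j / v j = Gz t := by field_simp
    rw [e] at h2
    have e2 : σ = fun t => (z t j - c j) / v j := funext hσdef
    rw [e2]
    exact h2
  have hw : ∀ t, 0 ≤ t → t < T → z t = c + σ t • v := by
    intro t ht htT
    have hwd : ∀ x ∈ Ico 0 t,
        HasDerivWithinAt (fun τ => z τ - (c + σ τ • v)) 0 (Ici x) x := by
      intro x hx
      have h1 := (hz x hx.1 (lt_trans hx.2 htT)).mono (Ici_subset_Ici.mpr hx.1)
      have h2 := (hσd x hx.1 (lt_trans hx.2 htT)).mono (Ici_subset_Ici.mpr hx.1)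
      have h3 := h1.sub ((h2.smul_const v).const_add c)
      rw [hma x, sub_self] at h3
      exact h3
    have hwc : ContinuousOn (fun τ => z τ - (c + σ τ • v)) (Icc 0 t) := by
      intro x hx
      have h1 := (hz x hx.1 (lt_of_le_of_lt hx.2 htT)).continuousWithinAt
      have h2 := (hσd x hx.1 (lt_of_le_of_lt hx.2 htT)).continuousWithinAt
      exact (h1.sub (continuousWithinAt_const.add (h2.smul continuousWithinAt_const))).mono
        (fun y hy => hy.1)
    have h : z t - (c + σ t • v) = z 0 - (c + σ 0 • v) :=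
      constant_of_has_deriv_right_zero hwc hwd t ⟨ht, le_rfl⟩
    rw [hz0, hσ0, sub_self] at h
    exact sub_eq_zero.mp h
  refine ⟨σ, hσ0, hw, ?_⟩
  intro t ht htT
  have h1 := hσd t ht htT
  have hzi : ∀ i, z t i = c i + σ t * v i := fun i => by
    have := congrFun (hw t ht htT) i
    simpa using this
  have h2 : Gz t = scalarRate R k lam c v (σ t) := by
    rw [hGz]
    unfold scalarRate
    apply Finset.sum_congr rfl
    intro r _
    congr 1
    apply Finset.prod_congr rfl
    intro i _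
    rw [hzi i]
  rw [← h2]
  exact h1


lemma massAction_line {d : ℕ} (R : Finset ((Fin d → ℕ) × (Fin d → ℕ)))
    (k lam : (Fin d → ℕ) × (Fin d → ℕ) → ℝ) (v : Fin d → ℝ)
    (hv : ∀ r ∈ R, reactionVec r = lam r • v) (c : Fin d → ℝ) (s : ℝ) :
    massAction R k (c + s • v) = scalarRate R k lam c v s • v := by
  unfold massAction scalarRate
  rw [Finset.sum_smul]
  apply Finset.sum_congr rfl
  intro r hr
  rw [hv r hr, smul_smul]
  congr 1
  simp only [Pi.add_apply, Pi.smul_apply, smul_eq_mul]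
  ring

/-- **Permanence for one-dimensional stoichiometric subspaces.** -/
theorem permanent_of_finrank_one {d : ℕ} (R : Finset ((Fin d → ℕ) × (Fin d → ℕ)))
    (hne : ∀ r ∈ R, r.1 ≠ r.2) (hwr : WeaklyReversible R)
    (hdim : Module.finrank ℝ (stoichSubspace R) = 1)
    (k : (Fin d → ℕ) × (Fin d → ℕ) → ℝ) (hk : ∀ r ∈ R, 0 < k r)
    (c : Fin d → ℝ) (hc : ∀ i, 0 < c i) :
    IsPermanentOn (massAction R k) (posClass R c) := by
  classical
  -- a spanning vector of the stoichiometric subspace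
  obtain ⟨⟨v, hvS⟩, hv0, hvspan⟩ := finrank_eq_one_iff'.mp hdim
  have hv0' : v ≠ 0 := fun h => hv0 (Subtype.ext h)
  have hmul : ∀ w ∈ stoichSubspace R, ∃ a : ℝ, a • v = w := by
    intro w hw
    obtain ⟨a, ha⟩ := hvspan ⟨w, hw⟩
    exact ⟨a, congrArg Subtype.val ha⟩
  obtain ⟨j, hj⟩ : ∃ j, v j ≠ 0 := by
    by_contra hall
    push Not at hall
    exact hv0' (funext hall)
  obtain ⟨lam, hlam⟩ : ∃ lam : (Fin d → ℕ) × (Fin d → ℕ) → ℝ,
      ∀ r, lam r = reactionVec r j / v j := ⟨_, fun _ => rfl⟩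
  have hv : ∀ r ∈ R, reactionVec r = lam r • v := by
    intro r hr
    obtain ⟨a, ha⟩ := hmul (reactionVec r) (Submodule.subset_span ⟨r, hr, rfl⟩)
    have h1 : lam r = a := by
      rw [hlam, ← ha]
      simp only [Pi.smul_apply, smul_eq_mul]
      field_simp
    rw [h1, ha]
  have hRne : R.Nonempty := by
    by_contra hempty
    rw [Finset.not_nonempty_iff_eq_empty] at hempty
    have h1 : stoichSubspace R = ⊥ := by
      simp [stoichSubspace, hempty]
    rw [h1] at hdim
    simp at hdim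
  -- the two ends
  obtain ⟨α, hαadm, hα⟩ := left_end R hRne hne hwr v hv0' lam hv k hk c hc
  obtain ⟨α', hα'adm, hα'⟩ := left_end R hRne hne hwr (- v) (neg_ne_zero.mpr hv0')
    (fun r => - lam r) (fun r hr => by rw [hv r hr]; simp) k hk c hc
  have hflip : ∀ s : ℝ, ∑ r ∈ R, (k r * - lam r) * ∏ i, (c i + (- s) * (- v) i) ^ (r.1 i)
      = - scalarRate R k lam c v s := by
    intro s
    unfold scalarRate
    rw [← Finset.sum_neg_distrib]
    apply Finset.sum_congr rfl
    intro r _
    have h1 : ∀ i, c i + (- s) * (- v) i = c i + s * v i := fun i => by simp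
    simp only [h1]
    ring
  obtain ⟨β, hβdef⟩ : ∃ β : ℝ, β = - α' := ⟨_, rfl⟩
  have hβadm : ∀ i, 0 < c i + β * v i := by
    intro i
    have h1 := hα'adm i
    rw [hβdef]
    simpa using h1
  have hαpos : ∀ s, s ≤ α → (∀ i, 0 < c i + s * v i) → 0 < scalarRate R k lam c v s :=
    fun s hs hadm => hα s hs hadm
  have hβneg : ∀ s, β ≤ s → (∀ i, 0 < c i + s * v i) → scalarRate R k lam c v s < 0 := by
    intro s hs hadm
    have h1 := hα' (- s) (by rw [hβdef] at hs; linarith) (fun i => by simpa using hadm i)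
    rw [hflip s] at h1
    linarith
  -- convexity of the admissible parameters
  have hconv : ∀ s1 s2 s : ℝ, (∀ i, 0 < c i + s1 * v i) → (∀ i, 0 < c i + s2 * v i) →
      s1 ≤ s → s ≤ s2 → ∀ i, 0 < c i + s * v i := by
    intro s1 s2 s h1 h2 h1s hs2 i
    rcases le_or_gt 0 (v i) with h | h
    · have h3 : 0 ≤ (s - s1) * v i := mul_nonneg (sub_nonneg.mpr h1s) h
      have h4 : (s - s1) * v i = s * v i - s1 * v i := by ring
      linarith [h1 i]
    · have h3 : 0 ≤ (s - s2) * v i :=
        mul_nonneg_of_nonpos_of_nonpos (sub_nonpos.mpr hs2) (le_of_lt h)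
      have h4 : (s - s2) * v i = s * v i - s2 * v i := by ring
      linarith [h2 i]
  have hαβ : α < β := by
    by_contra hcon
    push Not at hcon
    have h1 := hαpos α le_rfl hαadm
    have h2 := hβneg α hcon hαadm
    linarith
  have hgc : Continuous (scalarRate R k lam c v) := (scalarRate_contDiff R k lam c v).continuous
  -- the compact attracting set
  refine ⟨(fun s : ℝ => c + s • v) '' Icc α β, ?_, ?_, ?_⟩
  · exact isCompact_Icc.image (by fun_prop)
  · rintro x ⟨s, hs, rfl⟩
    refine ⟨fun i => ?_, ?_⟩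
    · have := hconv α β s hαadm hβadm hs.1 hs.2 i
      simpa using this
    · have : c + s • v - c = s • v := by abel
      rw [this]
      exact Submodule.smul_mem _ _ hvS
  · intro x0 hx0
    obtain ⟨s0, hs0⟩ := hmul (x0 - c) hx0.2
    have hx0eq : x0 = c + s0 • v := by rw [hs0]; abel
    have hs0adm : ∀ i, 0 < c i + s0 * v i := by
      intro i
      have := hx0.1 i
      rw [hx0eq] at this
      simpa using this
    -- the trapping interval
    obtain ⟨lo, hlodef⟩ : ∃ lo : ℝ, lo = min s0 α := ⟨_, rfl⟩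
    obtain ⟨hi, hhidef⟩ : ∃ hi : ℝ, hi = max s0 β := ⟨_, rfl⟩
    have hlo_s0 : lo ≤ s0 := by rw [hlodef]; exact min_le_left _ _
    have hlo_α : lo ≤ α := by rw [hlodef]; exact min_le_right _ _
    have hs0_hi : s0 ≤ hi := by rw [hhidef]; exact le_max_left _ _
    have hβ_hi : β ≤ hi := by rw [hhidef]; exact le_max_right _ _
    have hloadm : ∀ i, 0 < c i + lo * v i := by
      rw [hlodef]
      rcases min_choice s0 α with h | h <;> rw [h]
      · exact hs0adm
      · exact hαadm
    have hhiadm : ∀ i, 0 < c i + hi * v i := by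
      rw [hhidef]
      rcases max_choice s0 β with h | h <;> rw [h]
      · exact hs0adm
      · exact hβadm
    have hglo : 0 < scalarRate R k lam c v lo := hαpos lo hlo_α hloadm
    have hghi : scalarRate R k lam c v hi < 0 := hβneg hi hβ_hi hhiadm
    obtain ⟨K, hK⟩ := ((scalarRate_contDiff R k lam c v).contDiffOn (s := Icc lo hi)).exists_lipschitzOnWith
      one_ne_zero (convex_Icc lo hi) isCompact_Icc
    obtain ⟨σ, hσ0, hσ⟩ := exists_global_sol_of_trap (scalarRate R k lam c v) lo hi s0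
      hlo_s0 hs0_hi K hK hglo hghi
    have hσd : ∀ t, 0 ≤ t → HasDerivWithinAt σ (scalarRate R k lam c v (σ t)) (Ici 0) t :=
      fun t ht => (hσ t ht).1
    refine ⟨fun t => c + σ t • v, ?_, ?_, ?_, ?_, ?_⟩
    · simp only [hσ0, hx0eq]
    · intro t ht
      rw [massAction_line R k lam v hv c (σ t)]
      exact ((hσd t ht).smul_const v).const_add c
    · intro t ht i
      have h1 := hσ t ht
      have := hconv lo hi (σ t) hloadm hhiadm h1.2.1 h1.2.2 i
      simpa using this
    · obtain ⟨T, hT⟩ := eventually_mem_Icc hgc hσd α β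
        (fun s hs1 hs2 => hαpos s hs2 (hconv lo α s hloadm hαadm
          (by rw [hσ0] at hs1; rw [hlodef]; exact hs1) hs2))
        (fun s hs1 hs2 => hβneg s hs1 (hconv β hi s hβadm hhiadm hs1
          (by rw [hσ0] at hs2; rw [hhidef]; exact hs2)))
      exact ⟨T, fun t ht => ⟨σ t, hT t ht, rfl⟩⟩
    · intro T z hz0 hz t ht htT
      obtain ⟨τ, hτ0, hτz, hτd⟩ := reduce_sol R k lam v hv j hj c s0 z T
        (by rw [hz0, hx0eq]) hz
      have hτmem : ∀ t, 0 ≤ t → t < T → τ t ∈ Icc lo hi := fun t ht htT =>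
        ⟨lower_fence le_rfl hτd (by rw [hτ0]; exact hlo_s0) hglo t ht htT,
          upper_fence le_rfl hτd (by rw [hτ0]; exact hs0_hi) hghi t ht htT⟩
      have heq := sol_unique_of_trap (scalarRate R k lam c v) lo hi K hK τ σ T
        (fun t ht htT => ⟨hτd t ht htT, hτmem t ht htT⟩)
        (fun t ht _ => hσ t ht) (by rw [hτ0, hσ0]) t ht htT
      rw [hτz t ht htT, heq]

end Vale.Agent.H19
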