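import Mathlib
import Vale.Agent.H19.MassAction
import Vale.Agent.H19.DisjointMain

/-!
# From the intrinsic parallel-or-disjoint condition to labels, and the final theorems
-/

namespace Vale.Agent.H19

open Set Filter Topology Metric
open scoped NNReal

/-- Labels from the intrinsic condition: any two reactions have proportional reaction vectors,
or else have reaction vectors with disjoint supports and lie in different linkage classes. -/
lemma exists_labels {d : ℕ} (R : Finset ((Fin d → ℕ) × (Fin d → ℕ)))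
    (hne : ∀ r ∈ R, r.1 ≠ r.2) (hRne : R.Nonempty)
    (hstruct : ∀ r ∈ R, ∀ r' ∈ R,
      (∃ μ : ℝ, reactionVec r' = μ • reactionVec r) ∨
      ((∀ i, reactionVec r i = 0 ∨ reactionVec r' i = 0) ∧
        ¬ Relation.EqvGen (fun y y' => (y, y') ∈ R) r.1 r'.1)) :
    ∃ (A : Type) (_ : Fintype A) (v : A → Fin d → ℝ) (grp : (Fin d → ℕ) → A),
      (∀ a b, a ≠ b → ∀ i, v a i = 0 ∨ v b i = 0) ∧
      (∀ r ∈ R, grp r.2 = grp r.1 ∧ ∃ lam : ℝ, reactionVec r = lam • v (grp r.1)) ∧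
      (∀ a, ∃ r ∈ R, grp r.1 = a) := by
  classical
  let S : Setoid (↥R) :=
    { r := fun r r' => ∃ μ : ℝ, reactionVec r'.1 = μ • reactionVec r.1
      iseqv :=
        { refl := fun r => ⟨1, by rw [one_smul]⟩
          symm := by
            rintro r r' ⟨μ, hμ⟩
            have hμ0 : μ ≠ 0 := by
              intro h0
              rw [h0, zero_smul] at hμ
              exact reactionVec_ne_zero r'.1 (hne r'.1 r'.2) hμ
            exact ⟨μ⁻¹, by rw [hμ, smul_smul, inv_mul_cancel₀ hμ0, one_smul]⟩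
          trans := by
            rintro r r' r'' ⟨μ, hμ⟩ ⟨μ', hμ'⟩
            exact ⟨μ' * μ, by rw [hμ', hμ, smul_smul]⟩ } }
  have hSr : ∀ r r' : ↥R, S.r r r' ↔ ∃ μ : ℝ, reactionVec r'.1 = μ • reactionVec r.1 :=
    fun r r' => Iff.rfl
  obtain ⟨r0, hr0⟩ := hRne
  -- reactions sharing a complex are equivalent
  have hshare : ∀ (r r' : ↥R) (y : Fin d → ℕ), (r.1.1 = y ∨ r.1.2 = y) →
      (r'.1.1 = y ∨ r'.1.2 = y) → S.r r r' := by
    intro r r' y hy hy'
    have e1 : ∀ ρ : ↥R, (ρ.1.1 = y ∨ ρ.1.2 = y) →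
        Relation.EqvGen (fun y y' => (y, y') ∈ R) ρ.1.1 y := by
      intro ρ hρ
      rcases hρ with h | h
      · rw [h]; exact Relation.EqvGen.refl _
      · rw [← h]; exact Relation.EqvGen.rel _ _ ρ.2
    have e2 : Relation.EqvGen (fun y y' => (y, y') ∈ R) r.1.1 r'.1.1 :=
      (e1 r hy).trans _ _ _ ((e1 r' hy').symm _ _)
    rcases hstruct r.1 r.2 r'.1 r'.2 with h | h
    · exact h
    · exact absurd e2 h.2
  let grp : (Fin d → ℕ) → Quotient S := fun y =>
    if h : ∃ r : ↥R, r.1.1 = y ∨ r.1.2 = y then Quotient.mk S (Classical.choose h)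
    else Quotient.mk S ⟨r0, hr0⟩
  have hgrp_of : ∀ (ρ : ↥R) (y : Fin d → ℕ), (ρ.1.1 = y ∨ ρ.1.2 = y) →
      grp y = Quotient.mk S ρ := by
    intro ρ y hy
    have h : ∃ r : ↥R, r.1.1 = y ∨ r.1.2 = y := ⟨ρ, hy⟩
    simp only [grp, dif_pos h]
    exact Quotient.sound (hshare _ _ y (Classical.choose_spec h) hy)
  refine ⟨Quotient S, Fintype.ofFinite _, fun q => reactionVec (Quotient.out q).1, grp,
    ?_, ?_, ?_⟩
  · intro a b hab i
    rcases hstruct (Quotient.out a).1 (Quotient.out a).2 (Quotient.out b).1 (Quotient.out b).2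
      with h | h
    · exfalso
      apply hab
      have h1 : Quotient.mk S (Quotient.out a) = Quotient.mk S (Quotient.out b) :=
        Quotient.sound h
      rwa [Quotient.out_eq, Quotient.out_eq] at h1
    · exact h.1 i
  · intro r hr
    have h1 := hgrp_of ⟨r, hr⟩ r.1 (Or.inl rfl)
    have h2 := hgrp_of ⟨r, hr⟩ r.2 (Or.inr rfl)
    refine ⟨by rw [h1, h2], ?_⟩
    rw [h1]
    have h3 : S.r (Quotient.out (Quotient.mk S ⟨r, hr⟩)) ⟨r, hr⟩ :=
      Quotient.exact (Quotient.out_eq _)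
    exact h3
  · intro a
    refine ⟨(Quotient.out a).1, (Quotient.out a).2, ?_⟩
    rw [hgrp_of (Quotient.out a) _ (Or.inl rfl)]
    exact Quotient.out_eq a

/-- The case of a network without reactions. -/
lemma permanent_empty {d : ℕ} (c : Fin d → ℝ) (hc : ∀ i, 0 < c i) :
    ∃ K : Set (Fin d → ℝ), IsCompact K ∧
      K ⊆ posClass (∅ : Finset ((Fin d → ℕ) × (Fin d → ℕ))) c ∧
      ∀ κ : ℝ → (Fin d → ℕ) × (Fin d → ℕ) → ℝ,
        ∀ x0 ∈ posClass (∅ : Finset ((Fin d → ℕ) × (Fin d → ℕ))) c,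
        ∃ x : ℝ → (Fin d → ℝ), x 0 = x0 ∧
          (∀ t, 0 ≤ t → HasDerivWithinAt x
            (massAction (∅ : Finset ((Fin d → ℕ) × (Fin d → ℕ))) (κ t) (x t)) (Ici 0) t) ∧
          (∀ t, 0 ≤ t → ∀ i, 0 < x t i) ∧ (∃ T, ∀ t, T ≤ t → x t ∈ K) ∧
          (∀ (T : ℝ) (z : ℝ → (Fin d → ℝ)), z 0 = x0 →
            (∀ t, 0 ≤ t → t < T → HasDerivWithinAt z
              (massAction (∅ : Finset ((Fin d → ℕ) × (Fin d → ℕ))) (κ t) (z t)) (Ici 0) t) →
            ∀ t, 0 ≤ t → t < T → z t = x t) := by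
  have hma : ∀ (κ : (Fin d → ℕ) × (Fin d → ℕ) → ℝ) (x : Fin d → ℝ),
      massAction (∅ : Finset ((Fin d → ℕ) × (Fin d → ℕ))) κ x = 0 := by
    intro κ x
    unfold massAction
    exact Finset.sum_empty
  have hP : ∀ x ∈ posClass (∅ : Finset ((Fin d → ℕ) × (Fin d → ℕ))) c, x = c := by
    intro x hx
    have h1 := hx.2
    unfold stoichSubspace at h1
    simp only [Finset.coe_empty, Set.image_empty, Submodule.span_empty, Submodule.mem_bot] at h1
    exact sub_eq_zero.mp h1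
  have hcP : c ∈ posClass (∅ : Finset ((Fin d → ℕ) × (Fin d → ℕ))) c :=
    ⟨hc, by rw [sub_self]; exact Submodule.zero_mem _⟩
  refine ⟨{c}, isCompact_singleton, fun x hx => by rw [Set.mem_singleton_iff.mp hx]; exact hcP,
    ?_⟩
  intro κ x0 hx0
  refine ⟨fun _ => x0, rfl, ?_, fun _ _ => hx0.1, ⟨0, fun _ _ => by
    rw [hP x0 hx0]; exact Set.mem_singleton c⟩, ?_⟩
  · intro t _
    rw [hma]
    exact hasDerivWithinAt_const _ _ _
  · intro T z hz0 hz t ht htT
    have hz' : ∀ τ, 0 ≤ τ → τ < T → HasDerivWithinAt z ((fun _ => (0 : Fin d → ℝ)) τ) (Ici 0) τ := by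
      intro τ hτ hτT
      have := hz τ hτ hτT
      rwa [hma] at this
    have h1 := constant_of_has_deriv_right_zero (contOn_of_deriv hz' le_rfl htT)
      (fun τ hτ => rderiv_of_deriv hz' hτ.1 (lt_trans hτ.2 htT)) t ⟨ht, le_rfl⟩
    rw [h1, hz0]

/-- **Permanence (constant rates)** for weakly reversible networks in which any two reactions
have proportional reaction vectors, or else have reaction vectors with disjoint supports and lie
in different linkage classes. -/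
theorem permanent_parallel_or_disjoint {d : ℕ} (R : Finset ((Fin d → ℕ) × (Fin d → ℕ)))
    (hne : ∀ r ∈ R, r.1 ≠ r.2) (hwr : WeaklyReversible R)
    (hstruct : ∀ r ∈ R, ∀ r' ∈ R,
      (∃ μ : ℝ, reactionVec r' = μ • reactionVec r) ∨
      ((∀ i, reactionVec r i = 0 ∨ reactionVec r' i = 0) ∧
        ¬ Relation.EqvGen (fun y y' => (y, y') ∈ R) r.1 r'.1))
    (k : (Fin d → ℕ) × (Fin d → ℕ) → ℝ) (hk : ∀ r ∈ R, 0 < k r)
    (c : Fin d → ℝ) (hc : ∀ i, 0 < c i) :
    IsPermanentOn (massAction R k) (posClass R c) := by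
  by_cases hRne : R.Nonempty
  · obtain ⟨A, _, v, grp, hdisj, hgrp, hact⟩ := exists_labels R hne hRne hstruct
    obtain ⟨K, hKc, hKP, h⟩ := permanent_core R hne hwr v grp hdisj hgrp hact k k hk
      (fun _ _ => le_rfl) c hc
    exact ⟨K, hKc, hKP, fun x0 hx0 => h (fun _ => k) (fun r _ => continuous_const)
      (fun t r _ => ⟨le_rfl, le_rfl⟩) x0 hx0⟩
  · rw [Finset.not_nonempty_iff_eq_empty] at hRne
    subst hRne
    obtain ⟨K, hKc, hKP, h⟩ := permanent_empty c hc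
    exact ⟨K, hKc, hKP, fun x0 hx0 => h (fun _ => k) x0 hx0⟩

/-- **Uniform permanence with time-dependent rates** for the same class of networks: for every
`ε > 0` one compact set `K` attracts all solutions, for all continuous rate functions with values
in `[ε, ε⁻¹]`. -/
theorem permanent_parallel_or_disjoint_var {d : ℕ} (R : Finset ((Fin d → ℕ) × (Fin d → ℕ)))
    (hne : ∀ r ∈ R, r.1 ≠ r.2) (hwr : WeaklyReversible R)
    (hstruct : ∀ r ∈ R, ∀ r' ∈ R,
      (∃ μ : ℝ, reactionVec r' = μ • reactionVec r) ∨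
      ((∀ i, reactionVec r i = 0 ∨ reactionVec r' i = 0) ∧
        ¬ Relation.EqvGen (fun y y' => (y, y') ∈ R) r.1 r'.1))
    (ε : ℝ) (hε : 0 < ε) (c : Fin d → ℝ) (hc : ∀ i, 0 < c i) :
    ∃ K : Set (Fin d → ℝ), IsCompact K ∧ K ⊆ posClass R c ∧
      ∀ κ : ℝ → (Fin d → ℕ) × (Fin d → ℕ) → ℝ, (∀ r ∈ R, Continuous (fun t => κ t r)) →
        (∀ t, ∀ r ∈ R, ε ≤ κ t r ∧ κ t r ≤ ε⁻¹) →
        ∀ x0 ∈ posClass R c, ∃ x : ℝ → (Fin d → ℝ), x 0 = x0 ∧
          (∀ t, 0 ≤ t → HasDerivWithinAt x (massAction R (κ t) (x t)) (Ici 0) t) ∧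
          (∀ t, 0 ≤ t → ∀ i, 0 < x t i) ∧ (∃ T, ∀ t, T ≤ t → x t ∈ K) ∧
          (∀ (T : ℝ) (z : ℝ → (Fin d → ℝ)), z 0 = x0 →
            (∀ t, 0 ≤ t → t < T → HasDerivWithinAt z (massAction R (κ t) (z t)) (Ici 0) t) →
            ∀ t, 0 ≤ t → t < T → z t = x t) := by
  by_cases hRne : R.Nonempty
  · by_cases hε1 : ε ≤ ε⁻¹
    · obtain ⟨A, _, v, grp, hdisj, hgrp, hact⟩ := exists_labels R hne hRne hstruct
      exact permanent_core R hne hwr v grp hdisj hgrp hact (fun _ => ε) (fun _ => ε⁻¹)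
        (fun _ _ => hε) (fun _ _ => hε1) c hc
    · refine ⟨∅, isCompact_empty, Set.empty_subset _, ?_⟩
      intro κ _ hκb
      obtain ⟨r, hr⟩ := hRne
      have h1 := hκb 0 r hr
      exact absurd (le_trans h1.1 h1.2) hε1
  · rw [Finset.not_nonempty_iff_eq_empty] at hRne
    subst hRne
    obtain ⟨K, hKc, hKP, h⟩ := permanent_empty c hc
    exact ⟨K, hKc, hKP, fun κ _ _ x0 hx0 => h κ x0 hx0⟩

end Vale.Agent.H19
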