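import Mathlib
import Vale.Agent.H19.MassAction
import Vale.Agent.H19.SignLemma

/-!
# Sign of the rate of a group of linkage classes with parallel reaction vectors

`Ra` is a set of reactions of a weakly reversible network `R`, closed under following reactions,
all of whose reaction vectors are multiples of one vector `va`. The species outside the support
of `va` act as catalysts for `Ra`.
-/

namespace Vale.Agent.H19

/-- Positivity of the group rate near the lower end, uniformly in the rate constants within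
given bounds and in the (positive) catalyst concentrations. -/
lemma group_left {d : ℕ} (R Ra : Finset ((Fin d → ℕ) × (Fin d → ℕ)))
    (hne : ∀ r ∈ R, r.1 ≠ r.2) (hwr : WeaklyReversible R)
    (hsub : Ra ⊆ R) (hRa : Ra.Nonempty)
    (hclosed : ∀ r ∈ Ra, ∀ y'', (r.2, y'') ∈ R → (r.2, y'') ∈ Ra)
    (va : Fin d → ℝ) (hva : va ≠ 0) (lam : (Fin d → ℕ) × (Fin d → ℕ) → ℝ)
    (hv : ∀ r ∈ Ra, reactionVec r = lam r • va)
    (klo khi : (Fin d → ℕ) × (Fin d → ℕ) → ℝ) (hklo : ∀ r ∈ Ra, 0 < klo r)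
    (hkhi : ∀ r ∈ Ra, klo r ≤ khi r)
    (c : Fin d → ℝ) (hc : ∀ i, 0 < c i) :
    ∃ α, (∀ i, 0 < c i + α * va i) ∧ ∀ s, s ≤ α → (∀ i, 0 < c i + s * va i) →
      ∀ κ : (Fin d → ℕ) × (Fin d → ℕ) → ℝ, (∀ r ∈ Ra, klo r ≤ κ r ∧ κ r ≤ khi r) →
      ∀ x : Fin d → ℝ, (∀ i, 0 < x i) → (∀ i, va i ≠ 0 → x i = c i + s * va i) →
        0 < ∑ r ∈ Ra, (κ r * lam r) * ∏ i, x i ^ r.1 i := by
  classical
  obtain ⟨p, hp⟩ : ∃ p : (Fin d → ℕ) × (Fin d → ℕ) → (Fin d → ℕ),
      ∀ r i, p r i = if va i = 0 then r.1 i else 0 := ⟨_, fun _ _ => rfl⟩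
  obtain ⟨Q, hQdef⟩ : ∃ Q : Finset (Fin d → ℕ), Q = Ra.image p := ⟨_, rfl⟩
  have hQ : Q.Nonempty := by rw [hQdef]; exact hRa.image p
  obtain ⟨ktil, hktildef⟩ : ∃ ktil : (Fin d → ℕ) × (Fin d → ℕ) → ℝ,
      ∀ r, ktil r = if 0 < lam r then klo r else khi r := ⟨_, fun _ => rfl⟩
  have hktil : ∀ r ∈ Ra, 0 < ktil r := by
    intro r hr
    rw [hktildef]
    split_ifs
    · exact hklo r hr
    · exact lt_of_lt_of_le (hklo r hr) (hkhi r hr)
  have hprof : ∀ r ∈ Ra, ∀ i, va i = 0 → r.2 i = r.1 i := by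
    intro r hr i hi
    have h1 := congrFun (hv r hr) i
    simp only [reactionVec, Pi.smul_apply, smul_eq_mul, hi, mul_zero] at h1
    have h' : (r.2 i : ℝ) = (r.1 i : ℝ) := by linarith
    exact_mod_cast h'
  have hq : ∀ q ∈ Q, ∃ α, (∀ i, 0 < c i + α * va i) ∧
      ∀ s, s ≤ α → (∀ i, 0 < c i + s * va i) →
      0 < ∑ r ∈ Ra.filter (fun r => p r = q),
        (ktil r * lam r) * ∏ i, (c i + s * va i) ^ (r.1 i) := by
    intro q hq
    obtain ⟨Rq, hRq⟩ : ∃ Rq : Finset ((Fin d → ℕ) × (Fin d → ℕ)),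
        Rq = Ra.filter (fun r => p r = q) := ⟨_, rfl⟩
    rw [← hRq]
    have hmemRq : ∀ r, r ∈ Rq ↔ r ∈ Ra ∧ p r = q := by
      intro r; rw [hRq, Finset.mem_filter]
    have hRqne : Rq.Nonempty := by
      rw [hQdef] at hq
      obtain ⟨r, hr, hpr⟩ := Finset.mem_image.mp hq
      exact ⟨r, (hmemRq r).mpr ⟨hr, hpr⟩⟩
    have hRqsub : ∀ r ∈ Rq, r ∈ Ra := fun r hr => ((hmemRq r).mp hr).1
    have hstep : ∀ r ∈ Rq, ∀ z', (r.2, z') ∈ R → (r.2, z') ∈ Rq := by
      intro r hr z' hz'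
      have hrRa := hRqsub r hr
      have hpr : p r = q := ((hmemRq r).mp hr).2
      refine (hmemRq _).mpr ⟨hclosed r hrRa z' hz', ?_⟩
      rw [← hpr]
      funext i
      rw [hp, hp]
      split_ifs with hi
      · exact hprof r hrRa i hi
      · rfl
    have hwrq : WeaklyReversible Rq := by
      intro r hr
      have hinv : ∀ z, Relation.ReflTransGen (fun y y' => (y, y') ∈ R) r.2 z →
          ((∀ z', (z, z') ∈ R → (z, z') ∈ Rq) ∧
            Relation.ReflTransGen (fun y y' => (y, y') ∈ Rq) r.2 z) := by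
        intro z hz
        induction hz with
        | refl => exact ⟨fun z' hz' => hstep r hr z' hz', Relation.ReflTransGen.refl⟩
        | tail hab hbc ih =>
          have hbc' := ih.1 _ hbc
          exact ⟨fun z' hz' => hstep _ hbc' z' hz', ih.2.tail hbc'⟩
      exact (hinv r.1 (hwr r (hsub (hRqsub r hr)))).2
    exact left_end Rq hRqne (fun r hr => hne r (hsub (hRqsub r hr))) hwrq va hva lam
      (fun r hr => hv r (hRqsub r hr)) ktil (fun r hr => hktil r (hRqsub r hr)) c hc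
  choose! αq hαq1 hαq2 using hq
  obtain ⟨q0, hq0, hq0min⟩ := Finset.exists_min_image Q αq hQ
  refine ⟨αq q0, hαq1 q0 hq0, ?_⟩
  intro s hs hadm κ hκ x hx hxs
  rw [← Finset.sum_fiberwise_of_maps_to (g := p) (t := Q)
    (fun r hr => by rw [hQdef]; exact Finset.mem_image_of_mem p hr)]
  apply Finset.sum_pos _ hQ
  intro q hq
  have h1 := hαq2 q hq s (le_trans hs (hq0min q hq)) hadm
  obtain ⟨M, hM⟩ : ∃ M : ℝ, M = ∏ i, (if va i = 0 then (x i / c i) ^ (q i) else 1) := ⟨_, rfl⟩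
  have hMpos : 0 < M := by
    rw [hM]
    apply Finset.prod_pos
    intro i _
    split_ifs
    · exact pow_pos (div_pos (hx i) (hc i)) _
    · exact one_pos
  have hmon : ∀ r ∈ Ra.filter (fun r => p r = q),
      ∏ i, x i ^ r.1 i = M * ∏ i, (c i + s * va i) ^ (r.1 i) := by
    intro r hr
    have hpr : p r = q := (Finset.mem_filter.mp hr).2
    rw [hM, ← Finset.prod_mul_distrib]
    apply Finset.prod_congr rfl
    intro i _
    by_cases hi : va i = 0
    · have hqi : q i = r.1 i := by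
        rw [← hpr, hp, if_pos hi]
      rw [if_pos hi, hqi, hi, mul_zero, add_zero, ← mul_pow, div_mul_cancel₀ _ (ne_of_gt (hc i))]
    · rw [if_neg hi, one_mul, hxs i hi]
  have h2 : 0 < ∑ r ∈ Ra.filter (fun r => p r = q), (ktil r * lam r) * ∏ i, x i ^ r.1 i := by
    have h3 : ∑ r ∈ Ra.filter (fun r => p r = q), (ktil r * lam r) * ∏ i, x i ^ r.1 i
        = M * ∑ r ∈ Ra.filter (fun r => p r = q),
          (ktil r * lam r) * ∏ i, (c i + s * va i) ^ (r.1 i) := by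
      rw [Finset.mul_sum]
      apply Finset.sum_congr rfl
      intro r hr
      rw [hmon r hr]
      ring
    rw [h3]
    exact mul_pos hMpos h1
  refine lt_of_lt_of_le h2 (Finset.sum_le_sum ?_)
  intro r hr
  have hrRa : r ∈ Ra := (Finset.mem_filter.mp hr).1
  have hX : 0 ≤ ∏ i, x i ^ r.1 i :=
    Finset.prod_nonneg (fun i _ => pow_nonneg (le_of_lt (hx i)) _)
  apply mul_le_mul_of_nonneg_right _ hX
  rw [hktildef]
  split_ifs with hl
  · exact mul_le_mul_of_nonneg_right (hκ r hrRa).1 (le_of_lt hl)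
  · exact mul_le_mul_of_nonpos_right (hκ r hrRa).2 (not_lt.mp hl)


/-- Negativity of the group rate near the upper end. -/
lemma group_right {d : ℕ} (R Ra : Finset ((Fin d → ℕ) × (Fin d → ℕ)))
    (hne : ∀ r ∈ R, r.1 ≠ r.2) (hwr : WeaklyReversible R)
    (hsub : Ra ⊆ R) (hRa : Ra.Nonempty)
    (hclosed : ∀ r ∈ Ra, ∀ y'', (r.2, y'') ∈ R → (r.2, y'') ∈ Ra)
    (va : Fin d → ℝ) (hva : va ≠ 0) (lam : (Fin d → ℕ) × (Fin d → ℕ) → ℝ)
    (hv : ∀ r ∈ Ra, reactionVec r = lam r • va)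
    (klo khi : (Fin d → ℕ) × (Fin d → ℕ) → ℝ) (hklo : ∀ r ∈ Ra, 0 < klo r)
    (hkhi : ∀ r ∈ Ra, klo r ≤ khi r)
    (c : Fin d → ℝ) (hc : ∀ i, 0 < c i) :
    ∃ β, (∀ i, 0 < c i + β * va i) ∧ ∀ s, β ≤ s → (∀ i, 0 < c i + s * va i) →
      ∀ κ : (Fin d → ℕ) × (Fin d → ℕ) → ℝ, (∀ r ∈ Ra, klo r ≤ κ r ∧ κ r ≤ khi r) →
      ∀ x : Fin d → ℝ, (∀ i, 0 < x i) → (∀ i, va i ≠ 0 → x i = c i + s * va i) →
        ∑ r ∈ Ra, (κ r * lam r) * ∏ i, x i ^ r.1 i < 0 := by
  obtain ⟨α', h1, h2⟩ := group_left R Ra hne hwr hsub hRa hclosed (- va) (neg_ne_zero.mpr hva)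
    (fun r => - lam r) (fun r hr => by rw [hv r hr]; simp) klo khi hklo hkhi c hc
  refine ⟨- α', fun i => by simpa using h1 i, ?_⟩
  intro s hs hadm κ hκ x hx hxs
  have h3 := h2 (- s) (by linarith) (fun i => by simpa using hadm i) κ hκ x hx
    (fun i hi => by
      have hi' : va i ≠ 0 := by simpa using hi
      rw [hxs i hi']; simp)
  have h4 : ∑ r ∈ Ra, (κ r * - lam r) * ∏ i, x i ^ r.1 i
      = - ∑ r ∈ Ra, (κ r * lam r) * ∏ i, x i ^ r.1 i := by
    rw [← Finset.sum_neg_distrib]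
    apply Finset.sum_congr rfl
    intro r _; ring
  rw [h4] at h3
  linarith

/-- Comparison of the group rate with the rate for the extremal rate constants
`if 0 < lam r then klo r else khi r`. -/
lemma groupRate_ge {d : ℕ} (Ra : Finset ((Fin d → ℕ) × (Fin d → ℕ)))
    (lam klo khi κ : (Fin d → ℕ) × (Fin d → ℕ) → ℝ)
    (hκ : ∀ r ∈ Ra, klo r ≤ κ r ∧ κ r ≤ khi r) (x : Fin d → ℝ) (hx : ∀ i, 0 < x i) :
    ∑ r ∈ Ra, ((if 0 < lam r then klo r else khi r) * lam r) * ∏ i, x i ^ r.1 i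
      ≤ ∑ r ∈ Ra, (κ r * lam r) * ∏ i, x i ^ r.1 i := by
  apply Finset.sum_le_sum
  intro r hr
  have hX : 0 ≤ ∏ i, x i ^ r.1 i :=
    Finset.prod_nonneg (fun i _ => pow_nonneg (le_of_lt (hx i)) _)
  apply mul_le_mul_of_nonneg_right _ hX
  split_ifs with hl
  · exact mul_le_mul_of_nonneg_right (hκ r hr).1 (le_of_lt hl)
  · exact mul_le_mul_of_nonpos_right (hκ r hr).2 (not_lt.mp hl)

/-- Comparison of the group rate with the rate for the extremal rate constants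
`if 0 < lam r then khi r else klo r`. -/
lemma groupRate_le {d : ℕ} (Ra : Finset ((Fin d → ℕ) × (Fin d → ℕ)))
    (lam klo khi κ : (Fin d → ℕ) × (Fin d → ℕ) → ℝ)
    (hκ : ∀ r ∈ Ra, klo r ≤ κ r ∧ κ r ≤ khi r) (x : Fin d → ℝ) (hx : ∀ i, 0 < x i) :
    ∑ r ∈ Ra, (κ r * lam r) * ∏ i, x i ^ r.1 i
      ≤ ∑ r ∈ Ra, ((if 0 < lam r then khi r else klo r) * lam r) * ∏ i, x i ^ r.1 i := by
  apply Finset.sum_le_sum
  intro r hr
  have hX : 0 ≤ ∏ i, x i ^ r.1 i :=
    Finset.prod_nonneg (fun i _ => pow_nonneg (le_of_lt (hx i)) _)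
  apply mul_le_mul_of_nonneg_right _ hX
  split_ifs with hl
  · exact mul_le_mul_of_nonneg_right (hκ r hr).2 (le_of_lt hl)
  · exact mul_le_mul_of_nonpos_right (hκ r hr).1 (not_lt.mp hl)

end Vale.Agent.H19
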