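import Mathlib
import Vale.Agent.H19.MassAction
import Vale.Agent.H19.Group
import Vale.Agent.H19.Box

/-!
# Permanence when the reaction vectors of different linkage classes are parallel or disjoint

Setting: the complexes of a weakly reversible network are labelled by a finite type `A`, the
label being constant along reactions (hence on linkage classes); every reaction vector is a
multiple of the vector `v a` of its label `a`, and the vectors `v a` have pairwise disjoint
supports. The species outside the support of `v a` act as catalysts for the group `a`.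
-/

namespace Vale.Agent.H19

open Set Filter Topology Metric
open scoped NNReal

/-- The point `c + ∑ a, s a • v a`. -/
noncomputable def classPoint {d : ℕ} {A : Type*} [Fintype A] (c : Fin d → ℝ)
    (v : A → Fin d → ℝ) (s : A → ℝ) : Fin d → ℝ :=
  c + ∑ a, s a • v a

lemma classPoint_apply {d : ℕ} {A : Type*} [Fintype A] (c : Fin d → ℝ)
    (v : A → Fin d → ℝ) (s : A → ℝ) (i : Fin d) :
    classPoint c v s i = c i + ∑ a, s a * v a i := by
  simp [classPoint, Finset.sum_apply]

lemma classPoint_apply_of_ne {d : ℕ} {A : Type*} [Fintype A] (c : Fin d → ℝ)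
    (v : A → Fin d → ℝ) (hdisj : ∀ a b, a ≠ b → ∀ i, v a i = 0 ∨ v b i = 0)
    (s : A → ℝ) (a : A) (i : Fin d) (hi : v a i ≠ 0) :
    classPoint c v s i = c i + s a * v a i := by
  rw [classPoint_apply]
  congr 1
  apply Finset.sum_eq_single a
  · intro b _ hb
    rcases hdisj b a hb i with h | h
    · rw [h, mul_zero]
    · exact absurd h hi
  · intro h; exact absurd (Finset.mem_univ a) h

lemma classPoint_apply_of_all_zero {d : ℕ} {A : Type*} [Fintype A] (c : Fin d → ℝ)
    (v : A → Fin d → ℝ) (s : A → ℝ) (i : Fin d) (hi : ∀ a, v a i = 0) :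
    classPoint c v s i = c i := by
  rw [classPoint_apply]
  simp [hi]

lemma classPoint_pos {d : ℕ} {A : Type*} [Fintype A] (c : Fin d → ℝ)
    (v : A → Fin d → ℝ) (hc : ∀ i, 0 < c i)
    (hdisj : ∀ a b, a ≠ b → ∀ i, v a i = 0 ∨ v b i = 0) (s : A → ℝ)
    (hs : ∀ a i, 0 < c i + s a * v a i) : ∀ i, 0 < classPoint c v s i := by
  intro i
  by_cases h : ∃ a, v a i ≠ 0
  · obtain ⟨a, ha⟩ := h
    rw [classPoint_apply_of_ne c v hdisj s a i ha]
    exact hs a i
  · push Not at h
    rw [classPoint_apply_of_all_zero c v s i h]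
    exact hc i

lemma classPoint_coord_contDiff {d : ℕ} {A : Type*} [Fintype A] (c : Fin d → ℝ)
    (v : A → Fin d → ℝ) (i : Fin d) :
    ContDiff ℝ 1 (fun s : A → ℝ => classPoint c v s i) := by
  have h : (fun s : A → ℝ => classPoint c v s i) = fun s => c i + ∑ a, s a * v a i :=
    funext (fun s => classPoint_apply c v s i)
  rw [h]
  apply contDiff_const.add
  apply ContDiff.sum
  intro a _
  exact (contDiff_apply ℝ ℝ a).mul contDiff_const

lemma classPoint_mono_contDiff {d : ℕ} {A : Type*} [Fintype A] (c : Fin d → ℝ)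
    (v : A → Fin d → ℝ) (y : Fin d → ℕ) :
    ContDiff ℝ 1 (fun s : A → ℝ => ∏ i, (classPoint c v s i) ^ (y i)) := by
  apply contDiff_prod
  intro i _
  exact (classPoint_coord_contDiff c v i).pow _

open Classical in
/-- The contribution of the reaction `r` to the vector field in the group coordinates. -/
noncomputable def psi {d : ℕ} {A : Type*} [Fintype A] (c : Fin d → ℝ)
    (v : A → Fin d → ℝ) (grp : (Fin d → ℕ) → A) (lam : (Fin d → ℕ) × (Fin d → ℕ) → ℝ)
    (r : (Fin d → ℕ) × (Fin d → ℕ)) (s : A → ℝ) : A → ℝ :=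
  fun a => if grp r.1 = a then lam r * ∏ i, (classPoint c v s i) ^ (r.1 i) else 0

lemma psi_contDiff {d : ℕ} {A : Type*} [Fintype A] (c : Fin d → ℝ)
    (v : A → Fin d → ℝ) (grp : (Fin d → ℕ) → A) (lam : (Fin d → ℕ) × (Fin d → ℕ) → ℝ)
    (r : (Fin d → ℕ) × (Fin d → ℕ)) : ContDiff ℝ 1 (psi c v grp lam r) := by
  rw [contDiff_pi]
  intro a
  unfold psi
  by_cases h : grp r.1 = a
  · simp only [h, if_true]
    exact contDiff_const.mul (classPoint_mono_contDiff c v r.1)
  · simp only [h, if_false]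
    exact contDiff_const

open Classical in
lemma phi_apply {d : ℕ} {A : Type*} [Fintype A] (R : Finset ((Fin d → ℕ) × (Fin d → ℕ)))
    (c : Fin d → ℝ) (v : A → Fin d → ℝ) (grp : (Fin d → ℕ) → A)
    (lam κ : (Fin d → ℕ) × (Fin d → ℕ) → ℝ) (s : A → ℝ) (a : A) :
    (∑ r ∈ R, κ r • psi c v grp lam r s) a
      = ∑ r ∈ R.filter (fun r => grp r.1 = a),
          (κ r * lam r) * ∏ i, (classPoint c v s i) ^ (r.1 i) := by
  rw [Finset.sum_apply, Finset.sum_filter]
  apply Finset.sum_congr rfl
  intro r _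
  simp only [Pi.smul_apply, psi, smul_eq_mul]
  split_ifs
  · ring
  · ring

lemma massAction_classPoint {d : ℕ} {A : Type*} [Fintype A]
    (R : Finset ((Fin d → ℕ) × (Fin d → ℕ)))
    (c : Fin d → ℝ) (v : A → Fin d → ℝ) (grp : (Fin d → ℕ) → A)
    (lam κ : (Fin d → ℕ) × (Fin d → ℕ) → ℝ)
    (hlam : ∀ r ∈ R, reactionVec r = lam r • v (grp r.1)) (s : A → ℝ) :
    massAction R κ (classPoint c v s)
      = ∑ a, (∑ r ∈ R, κ r • psi c v grp lam r s) a • v a := by
  classical
  have h1 : ∀ a, (∑ r ∈ R, κ r • psi c v grp lam r s) a • v a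
      = ∑ r ∈ R, (κ r * psi c v grp lam r s a) • v a := by
    intro a
    rw [Finset.sum_apply, Finset.sum_smul]
    rfl
  simp_rw [h1]
  rw [Finset.sum_comm]
  unfold massAction
  apply Finset.sum_congr rfl
  intro r hr
  rw [Finset.sum_eq_single (grp r.1)]
  · simp only [psi, if_true]
    rw [hlam r hr, smul_smul]
    congr 1
    ring
  · intro b _ hb
    simp only [psi, if_neg (Ne.symm hb), mul_zero, zero_smul]
  · intro h; exact absurd (Finset.mem_univ _) h

lemma reactionVec_ne_zero {d : ℕ} (r : (Fin d → ℕ) × (Fin d → ℕ)) (h : r.1 ≠ r.2) :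
    reactionVec r ≠ 0 := by
  intro h0
  apply h
  funext i
  have h2 := congrFun h0 i
  simp only [reactionVec, Pi.zero_apply] at h2
  have h3 : (r.2 i : ℝ) = (r.1 i : ℝ) := by linarith
  exact_mod_cast h3.symm

/-- The mass-action vector fields with bounded rates are Lipschitz on balls, uniformly. -/
lemma massAction_lipschitz_on_balls {d : ℕ} (R : Finset ((Fin d → ℕ) × (Fin d → ℕ)))
    (bnd : (Fin d → ℕ) × (Fin d → ℕ) → ℝ≥0) (ρ : ℝ) :
    ∃ K : ℝ≥0, ∀ κ : (Fin d → ℕ) × (Fin d → ℕ) → ℝ, (∀ r ∈ R, |κ r| ≤ bnd r) →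
      LipschitzOnWith K (massAction R κ) (closedBall 0 ρ) := by
  have hcd : ∀ r : (Fin d → ℕ) × (Fin d → ℕ),
      ContDiff ℝ 1 (fun x : Fin d → ℝ => (∏ i, x i ^ r.1 i) • reactionVec r) := by
    intro r
    have hprod : ContDiff ℝ 1 (fun x : Fin d → ℝ => ∏ i, x i ^ r.1 i) := by
      apply contDiff_prod
      intro i _
      exact (contDiff_apply ℝ ℝ i).pow _
    exact hprod.smul_const (reactionVec r)
  have hex : ∀ r : (Fin d → ℕ) × (Fin d → ℕ), ∃ Kr : ℝ≥0,
      LipschitzOnWith Kr (fun x : Fin d → ℝ => (∏ i, x i ^ r.1 i) • reactionVec r)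
        (closedBall 0 ρ) := fun r =>
    ((hcd r).contDiffOn).exists_lipschitzOnWith one_ne_zero (convex_closedBall 0 ρ)
      (isCompact_closedBall 0 ρ)
  choose Kr hKr using hex
  refine ⟨∑ r ∈ R, bnd r * Kr r, fun κ hκ => ?_⟩
  have h := lipschitzOn_weighted_sum R
    (fun r (x : Fin d → ℝ) => (∏ i, x i ^ r.1 i) • reactionVec r) (closedBall 0 ρ) Kr
    (fun r _ => hKr r) κ bnd hκ
  have e : massAction R κ = fun x => ∑ r ∈ R, κ r • ((∏ i, x i ^ r.1 i) • reactionVec r) := by
    funext x
    unfold massAction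
    apply Finset.sum_congr rfl
    intro r _
    rw [mul_smul]
  rw [e]
  exact h

end Vale.Agent.H19
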