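import Mathlib
import Vale.Agent.H19.MassAction
import Vale.Agent.H19.Group
import Vale.Agent.H19.Box
import Vale.Agent.H19.Disjoint

/-!
# Permanence for line-wise weakly reversible networks with parallel-or-disjoint reaction vectors

Setting: the reactions of a network are labelled by a finite type `A`; every reaction vector is
a multiple of the vector `v a` of its label `a`, the vectors `v a` have pairwise disjoint
supports, and every reaction `y → y'` can be undone by a path from `y'` to `y` through reactions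
with the same label. The species outside the support of `v a` act as catalysts for the
reactions with label `a`.
-/

namespace Vale.Agent.H19

open Set Filter Topology Metric
open scoped NNReal

open Classical in
/-- The contribution of the reaction `r` to the vector field in the group coordinates. -/
noncomputable def psiw {d : ℕ} {A : Type*} [Fintype A] (c : Fin d → ℝ)
    (v : A → Fin d → ℝ) (g : (Fin d → ℕ) × (Fin d → ℕ) → A)
    (lam : (Fin d → ℕ) × (Fin d → ℕ) → ℝ)
    (r : (Fin d → ℕ) × (Fin d → ℕ)) (s : A → ℝ) : A → ℝ :=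
  fun a => if g r = a then lam r * ∏ i, (classPoint c v s i) ^ (r.1 i) else 0

lemma psiw_contDiff {d : ℕ} {A : Type*} [Fintype A] (c : Fin d → ℝ)
    (v : A → Fin d → ℝ) (g : (Fin d → ℕ) × (Fin d → ℕ) → A)
    (lam : (Fin d → ℕ) × (Fin d → ℕ) → ℝ)
    (r : (Fin d → ℕ) × (Fin d → ℕ)) : ContDiff ℝ 1 (psiw c v g lam r) := by
  rw [contDiff_pi]
  intro a
  unfold psiw
  by_cases h : g r = a
  · simp only [h, if_true]
    exact contDiff_const.mul (classPoint_mono_contDiff c v r.1)
  · simp only [h, if_false]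
    exact contDiff_const

open Classical in
lemma phiw_apply {d : ℕ} {A : Type*} [Fintype A] (R : Finset ((Fin d → ℕ) × (Fin d → ℕ)))
    (c : Fin d → ℝ) (v : A → Fin d → ℝ) (g : (Fin d → ℕ) × (Fin d → ℕ) → A)
    (lam κ : (Fin d → ℕ) × (Fin d → ℕ) → ℝ) (s : A → ℝ) (a : A) :
    (∑ r ∈ R, κ r • psiw c v g lam r s) a
      = ∑ r ∈ R.filter (fun r => g r = a),
          (κ r * lam r) * ∏ i, (classPoint c v s i) ^ (r.1 i) := by
  rw [Finset.sum_apply, Finset.sum_filter]
  apply Finset.sum_congr rfl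
  intro r _
  simp only [Pi.smul_apply, psiw, smul_eq_mul]
  split_ifs
  · ring
  · ring

lemma massAction_classPoint_w {d : ℕ} {A : Type*} [Fintype A]
    (R : Finset ((Fin d → ℕ) × (Fin d → ℕ)))
    (c : Fin d → ℝ) (v : A → Fin d → ℝ) (g : (Fin d → ℕ) × (Fin d → ℕ) → A)
    (lam κ : (Fin d → ℕ) × (Fin d → ℕ) → ℝ)
    (hlam : ∀ r ∈ R, reactionVec r = lam r • v (g r)) (s : A → ℝ) :
    massAction R κ (classPoint c v s)
      = ∑ a, (∑ r ∈ R, κ r • psiw c v g lam r s) a • v a := by
  classical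
  have h1 : ∀ a, (∑ r ∈ R, κ r • psiw c v g lam r s) a • v a
      = ∑ r ∈ R, (κ r * psiw c v g lam r s a) • v a := by
    intro a
    rw [Finset.sum_apply, Finset.sum_smul]
    rfl
  simp_rw [h1]
  rw [Finset.sum_comm]
  unfold massAction
  apply Finset.sum_congr rfl
  intro r hr
  rw [Finset.sum_eq_single (g r)]
  · simp only [psiw, if_true]
    rw [hlam r hr, smul_smul]
    congr 1
    ring
  · intro b _ hb
    simp only [psiw, if_neg (Ne.symm hb), mul_zero, zero_smul]
  · intro h; exact absurd (Finset.mem_univ _) h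

/-- Core theorem, with time-dependent continuous rates `κ t r` between the bounds
`klo r ≤ khi r`: one compact set `K` works for all such rate functions. -/
theorem permanent_core_w {d : ℕ} {A : Type*} [Fintype A]
    (R : Finset ((Fin d → ℕ) × (Fin d → ℕ)))
    (hne : ∀ r ∈ R, r.1 ≠ r.2)
    (v : A → Fin d → ℝ) (g : (Fin d → ℕ) × (Fin d → ℕ) → A)
    (hdisj : ∀ a b, a ≠ b → ∀ i, v a i = 0 ∨ v b i = 0)
    (hg : ∀ r ∈ R, ∃ lam : ℝ, reactionVec r = lam • v (g r))
    (hlw : ∀ r ∈ R, Relation.ReflTransGen (fun y y' => (y, y') ∈ R ∧ g (y, y') = g r) r.2 r.1)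
    (hact : ∀ a, ∃ r ∈ R, g r = a)
    (klo khi : (Fin d → ℕ) × (Fin d → ℕ) → ℝ) (hklo : ∀ r ∈ R, 0 < klo r)
    (hkhi : ∀ r ∈ R, klo r ≤ khi r)
    (c : Fin d → ℝ) (hc : ∀ i, 0 < c i) :
    ∃ K : Set (Fin d → ℝ), IsCompact K ∧ K ⊆ posClass R c ∧
      ∀ κ : ℝ → (Fin d → ℕ) × (Fin d → ℕ) → ℝ, (∀ r ∈ R, Continuous (fun t => κ t r)) →
        (∀ t, ∀ r ∈ R, klo r ≤ κ t r ∧ κ t r ≤ khi r) →
        ∀ x0 ∈ posClass R c, ∃ x : ℝ → (Fin d → ℝ), x 0 = x0 ∧
          (∀ t, 0 ≤ t → HasDerivWithinAt x (massAction R (κ t) (x t)) (Ici 0) t) ∧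
          (∀ t, 0 ≤ t → ∀ i, 0 < x t i) ∧ (∃ T, ∀ t, T ≤ t → x t ∈ K) ∧
          (∀ (T : ℝ) (z : ℝ → (Fin d → ℝ)), z 0 = x0 →
            (∀ t, 0 ≤ t → t < T → HasDerivWithinAt z (massAction R (κ t) (z t)) (Ici 0) t) →
            ∀ t, 0 ≤ t → t < T → z t = x t) := by
  classical
  have hg2 : ∀ r, ∃ lam : ℝ, r ∈ R → reactionVec r = lam • v (g r) := by
    intro r
    by_cases hr : r ∈ R
    · obtain ⟨l, hl⟩ := hg r hr
      exact ⟨l, fun _ => hl⟩
    · exact ⟨0, fun h => absurd h hr⟩
  choose lam hlam using hg2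
  have hlamne : ∀ r ∈ R, lam r ≠ 0 := by
    intro r hr h0
    have h1 := hlam r hr
    rw [h0, zero_smul] at h1
    exact reactionVec_ne_zero r (hne r hr) h1
  -- the groups
  obtain ⟨Ra, hRa⟩ : ∃ Ra : A → Finset ((Fin d → ℕ) × (Fin d → ℕ)),
      ∀ a, Ra a = R.filter (fun r => g r = a) := ⟨_, fun _ => rfl⟩
  have hRamem : ∀ a r, r ∈ Ra a ↔ r ∈ R ∧ g r = a := by
    intro a r; rw [hRa, Finset.mem_filter]
  have hRasub : ∀ a, Ra a ⊆ R := fun a r hr => ((hRamem a r).mp hr).1
  have hRane : ∀ a, (Ra a).Nonempty := fun a => by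
    obtain ⟨r, hr, hra⟩ := hact a
    exact ⟨r, (hRamem a r).mpr ⟨hr, hra⟩⟩
  have hRawr : ∀ a, WeaklyReversible (Ra a) := by
    intro a r hr
    obtain ⟨hrR, hra⟩ := (hRamem a r).mp hr
    refine Relation.ReflTransGen.mono (fun y y' hyy => ?_) _ _ (hlw r hrR)
    exact (hRamem a _).mpr ⟨hyy.1, by rw [hyy.2, hra]⟩
  have hRav : ∀ a, ∀ r ∈ Ra a, reactionVec r = lam r • v a := by
    intro a r hr
    obtain ⟨hrR, hra⟩ := (hRamem a r).mp hr
    rw [← hra]; exact hlam r hrR
  have hvne : ∀ a, v a ≠ 0 := by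
    intro a h0
    obtain ⟨r, hr⟩ := hRane a
    have h1 := hRav a r hr
    rw [h0, smul_zero] at h1
    exact reactionVec_ne_zero r (hne r (hRasub a hr)) h1
  have hvS : ∀ a, v a ∈ stoichSubspace R := by
    intro a
    obtain ⟨r, hr⟩ := hRane a
    have hrR := hRasub a hr
    have h1 := hRav a r hr
    have h2 : v a = (lam r)⁻¹ • reactionVec r := by
      rw [h1, smul_smul, inv_mul_cancel₀ (hlamne r hrR), one_smul]
    rw [h2]
    exact Submodule.smul_mem _ _ (Submodule.subset_span ⟨r, hrR, rfl⟩)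
  -- the two ends of every group
  have hL := fun a => group_left (Ra a) (Ra a) (fun r hr => hne r (hRasub a hr)) (hRawr a)
    (Finset.Subset.refl _) (hRane a) (fun _ _ _ hy => hy) (v a)
    (hvne a) lam (hRav a) klo khi (fun r hr => hklo r (hRasub a hr))
    (fun r hr => hkhi r (hRasub a hr)) c hc
  have hRt := fun a => group_right (Ra a) (Ra a) (fun r hr => hne r (hRasub a hr)) (hRawr a)
    (Finset.Subset.refl _) (hRane a) (fun _ _ _ hy => hy) (v a)
    (hvne a) lam (hRav a) klo khi (fun r hr => hklo r (hRasub a hr))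
    (fun r hr => hkhi r (hRasub a hr)) c hc
  choose α hαadm hαpos using hL
  choose β hβadm hβneg using hRt
  have hklobnd : ∀ a, ∀ r ∈ Ra a, klo r ≤ klo r ∧ klo r ≤ khi r :=
    fun a r hr => ⟨le_rfl, hkhi r (hRasub a hr)⟩
  have hαβ : ∀ a, α a < β a := by
    intro a
    by_contra hcon
    push Not at hcon
    have h1 := hαpos a (α a) le_rfl (hαadm a) klo (hklobnd a) (fun i => c i + α a * v a i)
      (hαadm a) (fun i _ => rfl)
    have h2 := hβneg a (α a) hcon (hαadm a) klo (hklobnd a) (fun i => c i + α a * v a i)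
      (hαadm a) (fun i _ => rfl)
    linarith
  have hconv : ∀ a (u1 u2 u : ℝ), (∀ i, 0 < c i + u1 * v a i) → (∀ i, 0 < c i + u2 * v a i) →
      u1 ≤ u → u ≤ u2 → ∀ i, 0 < c i + u * v a i := by
    intro a u1 u2 u h1 h2 h1u hu2 i
    rcases le_or_gt 0 (v a i) with h | h
    · have h3 : 0 ≤ (u - u1) * v a i := mul_nonneg (sub_nonneg.mpr h1u) h
      have h4 : (u - u1) * v a i = u * v a i - u1 * v a i := by ring
      linarith [h1 i]
    · have h3 : 0 ≤ (u - u2) * v a i :=
        mul_nonneg_of_nonpos_of_nonpos (sub_nonpos.mpr hu2) (le_of_lt h)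
      have h4 : (u - u2) * v a i = u * v a i - u2 * v a i := by ring
      linarith [h2 i]
  have hcpc : Continuous (classPoint c v) := by
    unfold classPoint
    fun_prop
  -- the compact attracting set
  refine ⟨classPoint c v '' Icc α β, isCompact_Icc.image hcpc, ?_, ?_⟩
  · rintro x ⟨s, hs, rfl⟩
    refine ⟨classPoint_pos c v hc hdisj s
      (fun a => hconv a (α a) (β a) (s a) (hαadm a) (hβadm a) (hs.1 a) (hs.2 a)), ?_⟩
    have h1 : classPoint c v s - c = ∑ a, s a • v a := by
      unfold classPoint; abel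
    rw [h1]
    exact Submodule.sum_mem _ (fun a _ => Submodule.smul_mem _ _ (hvS a))
  intro κ hκc hκb x0 hx0
  -- coordinates of the initial point
  have hspan : stoichSubspace R ≤ LinearMap.range (Fintype.linearCombination ℝ v) := by
    unfold stoichSubspace
    rw [Submodule.span_le]
    rintro w ⟨r, hr, rfl⟩
    refine ⟨Pi.single (g r) (lam r), ?_⟩
    rw [Fintype.linearCombination_apply_single]
    exact (hlam r hr).symm
  obtain ⟨s0, hs0⟩ := hspan hx0.2
  rw [Fintype.linearCombination_apply] at hs0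
  have hx0eq : x0 = classPoint c v s0 := by
    unfold classPoint; rw [hs0]; abel
  have hs0adm : ∀ a i, 0 < c i + s0 a * v a i := by
    intro a i
    by_cases hi : v a i = 0
    · rw [hi, mul_zero, add_zero]; exact hc i
    · rw [← classPoint_apply_of_ne c v hdisj s0 a i hi, ← hx0eq]
      exact hx0.1 i
  -- the trapping box
  obtain ⟨lo, hlodef⟩ : ∃ lo : A → ℝ, ∀ a, lo a = min (s0 a) (α a) := ⟨_, fun _ => rfl⟩
  obtain ⟨hi, hhidef⟩ : ∃ hi : A → ℝ, ∀ a, hi a = max (s0 a) (β a) := ⟨_, fun _ => rfl⟩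
  have hlo_s0 : ∀ a, lo a ≤ s0 a := fun a => by rw [hlodef]; exact min_le_left _ _
  have hlo_α : ∀ a, lo a ≤ α a := fun a => by rw [hlodef]; exact min_le_right _ _
  have hs0_hi : ∀ a, s0 a ≤ hi a := fun a => by rw [hhidef]; exact le_max_left _ _
  have hβ_hi : ∀ a, β a ≤ hi a := fun a => by rw [hhidef]; exact le_max_right _ _
  have hloadm : ∀ a i, 0 < c i + lo a * v a i := by
    intro a
    rw [hlodef]
    rcases min_choice (s0 a) (α a) with h | h <;> rw [h]
    · exact hs0adm a
    · exact hαadm a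
  have hhiadm : ∀ a i, 0 < c i + hi a * v a i := by
    intro a
    rw [hhidef]
    rcases max_choice (s0 a) (β a) with h | h <;> rw [h]
    · exact hs0adm a
    · exact hβadm a
  have hboxadm : ∀ s ∈ Icc lo hi, ∀ a i, 0 < c i + s a * v a i := fun s hs a =>
    hconv a (lo a) (hi a) (s a) (hloadm a) (hhiadm a) (hs.1 a) (hs.2 a)
  have hboxpos : ∀ s ∈ Icc lo hi, ∀ i, 0 < classPoint c v s i := fun s hs =>
    classPoint_pos c v hc hdisj s (hboxadm s hs)
  -- Lipschitz constants and bounds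
  have hexK : ∀ r : (Fin d → ℕ) × (Fin d → ℕ), ∃ Kr : ℝ≥0,
      LipschitzOnWith Kr (psiw c v g lam r) (Icc lo hi) := fun r =>
    ((psiw_contDiff c v g lam r).contDiffOn).exists_lipschitzOnWith one_ne_zero
      (convex_Icc lo hi) isCompact_Icc
  choose Kr hKr using hexK
  have hexB : ∀ r : (Fin d → ℕ) × (Fin d → ℕ), ∃ Br : ℝ≥0,
      ∀ s ∈ Icc lo hi, ‖psiw c v g lam r s‖ ≤ Br := by
    intro r
    obtain ⟨C, hC⟩ := (isCompact_Icc (a := lo) (b := hi)).exists_bound_of_continuousOn
      (psiw_contDiff c v g lam r).continuous.continuousOn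
    exact ⟨Real.toNNReal C, fun s hs => le_trans (hC s hs) (Real.le_coe_toNNReal C)⟩
  choose Br hBr using hexB
  obtain ⟨bnd, hbnddef⟩ : ∃ bnd : (Fin d → ℕ) × (Fin d → ℕ) → ℝ≥0,
      ∀ r, bnd r = Real.toNNReal (khi r) := ⟨_, fun _ => rfl⟩
  have hbnd : ∀ t, ∀ r ∈ R, |κ t r| ≤ bnd r := by
    intro t r hr
    have h1 := hκb t r hr
    rw [abs_of_pos (lt_of_lt_of_le (hklo r hr) h1.1), hbnddef]
    exact le_trans h1.2 (Real.le_coe_toNNReal _)
  -- the vector field in group coordinates
  obtain ⟨F, hFdef⟩ : ∃ F : ℝ → (A → ℝ) → (A → ℝ),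
      ∀ t s, F t s = ∑ r ∈ R, κ t r • psiw c v g lam r s := ⟨_, fun _ _ => rfl⟩
  have hFa : ∀ t s a, F t s a
      = ∑ r ∈ Ra a, (κ t r * lam r) * ∏ i, (classPoint c v s i) ^ (r.1 i) := by
    intro t s a
    rw [hFdef, hRa, phiw_apply]
  have hFK : ∀ t, LipschitzOnWith (∑ r ∈ R, bnd r * Kr r) (F t) (Icc lo hi) := by
    intro t
    have h := lipschitzOn_weighted_sum R (psiw c v g lam) (Icc lo hi) Kr (fun r _ => hKr r)
      (κ t) bnd (hbnd t)
    have e : F t = fun s => ∑ r ∈ R, κ t r • psiw c v g lam r s := funext (hFdef t)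
    rw [e]; exact h
  have hFL : ∀ t, ∀ s ∈ Icc lo hi, ‖F t s‖ ≤ ((∑ r ∈ R, bnd r * Br r : ℝ≥0) : ℝ) := by
    intro t s hs
    rw [hFdef]
    exact norm_weighted_sum_le R (fun r => psiw c v g lam r s) (κ t) bnd Br (hbnd t)
      (fun r _ => hBr r s hs)
  have hFc : ∀ s ∈ Icc lo hi, Continuous (fun t => F t s) := by
    intro s _
    have e : (fun t => F t s) = fun t => ∑ r ∈ R, κ t r • psiw c v g lam r s :=
      funext (fun t => hFdef t s)
    rw [e]
    exact continuous_finsetSum _ (fun r hr => (hκc r hr).smul continuous_const)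
  have hin_lo : ∀ t, ∀ s ∈ Icc lo hi, ∀ a, s a = lo a → 0 < F t s a := by
    intro t s hs a hsa
    rw [hFa]
    exact hαpos a (s a) (by rw [hsa]; exact hlo_α a) (hboxadm s hs a) (κ t)
      (fun r hr => hκb t r (hRasub a hr)) (classPoint c v s) (hboxpos s hs)
      (fun i hi => classPoint_apply_of_ne c v hdisj s a i hi)
  have hin_hi : ∀ t, ∀ s ∈ Icc lo hi, ∀ a, s a = hi a → F t s a < 0 := by
    intro t s hs a hsa
    rw [hFa]
    exact hβneg a (s a) (by rw [hsa]; exact hβ_hi a) (hboxadm s hs a) (κ t)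
      (fun r hr => hκb t r (hRasub a hr)) (classPoint c v s) (hboxpos s hs)
      (fun i hi => classPoint_apply_of_ne c v hdisj s a i hi)
  obtain ⟨s, hs0', hs⟩ := exists_box_sol F lo hi _ _ hFK hFL hFc hin_lo hin_hi s0
    ⟨fun a => hlo_s0 a, fun a => hs0_hi a⟩
  -- attraction of every coordinate
  have hattr : ∀ a, ∃ T, ∀ t, T ≤ t → s t a ∈ Icc (α a) (β a) := by
    intro a
    -- lower bound of the rate below `α a`
    have hc1 : IsCompact (Icc lo hi ∩ {z : A → ℝ | z a ≤ α a}) :=
      isCompact_Icc.inter_right (isClosed_le (continuous_apply a) continuous_const)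
    have hcont1 : Continuous (fun z : A → ℝ => ∑ r ∈ Ra a,
        ((if 0 < lam r then klo r else khi r) * lam r)
          * ∏ i, (classPoint c v z i) ^ (r.1 i)) :=
      continuous_finsetSum _ (fun r _ =>
        continuous_const.mul (classPoint_mono_contDiff c v r.1).continuous)
    obtain ⟨μ1, hμ1, hμ1le⟩ := exists_pos_lower_bound hc1 hcont1.continuousOn (by
      intro z hz
      exact hαpos a (z a) hz.2 (hboxadm z hz.1 a) _
        (fun r hr => by
          have := hkhi r (hRasub a hr)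
          split_ifs
          · exact ⟨le_rfl, this⟩
          · exact ⟨this, le_rfl⟩)
        (classPoint c v z) (hboxpos z hz.1)
        (fun i hi => classPoint_apply_of_ne c v hdisj z a i hi))
    have hc2 : IsCompact (Icc lo hi ∩ {z : A → ℝ | β a ≤ z a}) :=
      isCompact_Icc.inter_right (isClosed_le continuous_const (continuous_apply a))
    have hcont2 : Continuous (fun z : A → ℝ => - ∑ r ∈ Ra a,
        ((if 0 < lam r then khi r else klo r) * lam r)
          * ∏ i, (classPoint c v z i) ^ (r.1 i)) :=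
      (continuous_finsetSum _ (fun r _ =>
        continuous_const.mul (classPoint_mono_contDiff c v r.1).continuous)).neg
    obtain ⟨μ2, hμ2, hμ2le⟩ := exists_pos_lower_bound hc2 hcont2.continuousOn (by
      intro z hz
      have h1 := hβneg a (z a) hz.2 (hboxadm z hz.1 a)
        (fun r => if 0 < lam r then khi r else klo r)
        (fun r hr => by
          have := hkhi r (hRasub a hr)
          split_ifs
          · exact ⟨this, le_rfl⟩
          · exact ⟨le_rfl, this⟩)
        (classPoint c v z) (hboxpos z hz.1)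
        (fun i hi => classPoint_apply_of_ne c v hdisj z a i hi)
      linarith)
    refine box_attract F lo hi s hs a (α a) (β a) (min μ1 μ2) (lt_min hμ1 hμ2) ?_ ?_
    · intro t z hz hza
      rw [hFa]
      have h1 := hμ1le z ⟨hz, hza⟩
      have h2 := groupRate_ge (Ra a) lam klo khi (κ t) (fun r hr => hκb t r (hRasub a hr))
        (classPoint c v z) (hboxpos z hz)
      exact le_trans (min_le_left _ _) (le_trans h1 h2)
    · intro t z hz hza
      rw [hFa]
      have h1 := hμ2le z ⟨hz, hza⟩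
      have h2 := groupRate_le (Ra a) lam klo khi (κ t) (fun r hr => hκb t r (hRasub a hr))
        (classPoint c v z) (hboxpos z hz)
      have h3 : min μ1 μ2 ≤ μ2 := min_le_right _ _
      linarith
  choose Ta hTa using hattr
  -- the solution
  have hxderiv : ∀ t, 0 ≤ t →
      HasDerivWithinAt (fun τ => classPoint c v (s τ))
        (massAction R (κ t) (classPoint c v (s t))) (Ici 0) t := by
    intro t ht
    rw [massAction_classPoint_w R c v g lam (κ t) hlam (s t), ← hFdef]
    have hd : HasDerivWithinAt (fun τ => ∑ a, s τ a • v a) (∑ a, F t (s t) a • v a) (Ici 0) t :=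
      HasDerivWithinAt.fun_sum (fun a _ =>
        (hasDerivWithinAt_pi.mp (hs t ht).1 a).smul_const (v a))
    exact hd.const_add c
  refine ⟨fun t => classPoint c v (s t), ?_, hxderiv, ?_, ?_, ?_⟩
  · simp only [hs0', hx0eq]
  · exact fun t ht => hboxpos (s t) (hs t ht).2
  · refine ⟨∑ a, |Ta a|, fun t ht => ⟨s t, ⟨fun a => ?_, fun a => ?_⟩, rfl⟩⟩
    · have h1 : Ta a ≤ ∑ b, |Ta b| :=
        le_trans (le_abs_self _) (Finset.single_le_sum (f := fun b => |Ta b|)
          (fun b _ => abs_nonneg _) (Finset.mem_univ a))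
      exact (hTa a t (le_trans h1 ht)).1
    · have h1 : Ta a ≤ ∑ b, |Ta b| :=
        le_trans (le_abs_self _) (Finset.single_le_sum (f := fun b => |Ta b|)
          (fun b _ => abs_nonneg _) (Finset.mem_univ a))
      exact (hTa a t (le_trans h1 ht)).2
  · intro T z hz0 hz t ht htT
    refine sol_unique_of_lipschitz_on_balls (fun t => massAction R (κ t)) ?_ z
      (fun t => classPoint c v (s t)) T hz (fun t ht _ => hxderiv t ht) ?_ t ht htT
    · intro ρ
      obtain ⟨K, hK⟩ := massAction_lipschitz_on_balls R bnd ρ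
      exact ⟨K, fun t => hK (κ t) (hbnd t)⟩
    · simp only [hs0', hz0, hx0eq]

end Vale.Agent.H19
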