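import Mathlib
import Vale.Agent.H19.MassAction
import Vale.Agent.H19.Linewise
import Vale.Agent.H19.Labels

/-!
# Permanence for line-wise weakly reversible networks with parallel-or-disjoint reaction vectors

Final theorems, stated intrinsically:
* any two reactions have proportional reaction vectors or reaction vectors with disjoint supports;
* every reaction `y → y'` can be undone by a path from `y'` to `y` through reactions whose
  reaction vectors are proportional to `y' - y`.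
-/

namespace Vale.Agent.H19

open Set Filter Topology Metric
open scoped NNReal

/-- Labels for the reactions from the intrinsic conditions. -/
lemma exists_labels_w {d : ℕ} (R : Finset ((Fin d → ℕ) × (Fin d → ℕ)))
    (hne : ∀ r ∈ R, r.1 ≠ r.2) (hRne : R.Nonempty)
    (hpar : ∀ r ∈ R, ∀ r' ∈ R,
      (∃ μ : ℝ, reactionVec r' = μ • reactionVec r) ∨
      (∀ i, reactionVec r i = 0 ∨ reactionVec r' i = 0))
    (hlw : ∀ r ∈ R, Relation.ReflTransGen
      (fun y y' => (y, y') ∈ R ∧ ∃ μ : ℝ, reactionVec (y, y') = μ • reactionVec r) r.2 r.1) :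
    ∃ (A : Type) (_ : Fintype A) (v : A → Fin d → ℝ) (g : (Fin d → ℕ) × (Fin d → ℕ) → A),
      (∀ a b, a ≠ b → ∀ i, v a i = 0 ∨ v b i = 0) ∧
      (∀ r ∈ R, ∃ lam : ℝ, reactionVec r = lam • v (g r)) ∧
      (∀ r ∈ R, Relation.ReflTransGen (fun y y' => (y, y') ∈ R ∧ g (y, y') = g r) r.2 r.1) ∧
      (∀ a, ∃ r ∈ R, g r = a) := by
  classical
  let S : Setoid (↥R) :=
    { r := fun r r' => ∃ μ : ℝ, reactionVec r'.1 = μ • reactionVec r.1
      iseqv :=
        { refl := fun r => ⟨1, by rw [one_smul]⟩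
          symm := by
            rintro r r' ⟨μ, hμ⟩
            have hμ0 : μ ≠ 0 := by
              intro h0
              rw [h0, zero_smul] at hμ
              exact reactionVec_ne_zero r'.1 (hne r'.1 r'.2) hμ
            exact ⟨μ⁻¹, by rw [hμ, smul_smul, inv_mul_cancel₀ hμ0, one_smul]⟩
          trans := by
            rintro r r' r'' ⟨μ, hμ⟩ ⟨μ', hμ'⟩
            exact ⟨μ' * μ, by rw [hμ', hμ, smul_smul]⟩ } }
  obtain ⟨r0, hr0⟩ := hRne
  let g : (Fin d → ℕ) × (Fin d → ℕ) → Quotient S := fun r =>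
    if h : r ∈ R then Quotient.mk S ⟨r, h⟩ else Quotient.mk S ⟨r0, hr0⟩
  have hg_of : ∀ r (hr : r ∈ R), g r = Quotient.mk S ⟨r, hr⟩ := by
    intro r hr
    simp only [g, dif_pos hr]
  refine ⟨Quotient S, Fintype.ofFinite _, fun q => reactionVec (Quotient.out q).1, g,
    ?_, ?_, ?_, ?_⟩
  · intro a b hab i
    rcases hpar (Quotient.out a).1 (Quotient.out a).2 (Quotient.out b).1 (Quotient.out b).2
      with h | h
    · exfalso
      apply hab
      have h1 : Quotient.mk S (Quotient.out a) = Quotient.mk S (Quotient.out b) :=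
        Quotient.sound h
      rwa [Quotient.out_eq, Quotient.out_eq] at h1
    · exact h i
  · intro r hr
    rw [hg_of r hr]
    have h3 : S.r (Quotient.out (Quotient.mk S ⟨r, hr⟩)) ⟨r, hr⟩ :=
      Quotient.exact (Quotient.out_eq _)
    exact h3
  · intro r hr
    refine Relation.ReflTransGen.mono (fun y y' hyy => ?_) _ _ (hlw r hr)
    refine ⟨hyy.1, ?_⟩
    rw [hg_of r hr, hg_of (y, y') hyy.1]
    exact (Quotient.sound (show S.r ⟨r, hr⟩ ⟨(y, y'), hyy.1⟩ from hyy.2)).symm
  · intro a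
    refine ⟨(Quotient.out a).1, (Quotient.out a).2, ?_⟩
    rw [hg_of _ (Quotient.out a).2]
    exact Quotient.out_eq a

/-- **Uniform permanence with time-dependent rates**: networks in which any two reactions have
proportional reaction vectors or reaction vectors with disjoint supports, and every reaction
`y → y'` can be undone by a path from `y'` to `y` through reactions with reaction vectors
proportional to `y' - y`. For every `ε > 0` one compact set `K` attracts all solutions, for all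
continuous rate functions with values in `[ε, ε⁻¹]`. -/
theorem permanent_linewise_var {d : ℕ} (R : Finset ((Fin d → ℕ) × (Fin d → ℕ)))
    (hne : ∀ r ∈ R, r.1 ≠ r.2)
    (hpar : ∀ r ∈ R, ∀ r' ∈ R,
      (∃ μ : ℝ, reactionVec r' = μ • reactionVec r) ∨
      (∀ i, reactionVec r i = 0 ∨ reactionVec r' i = 0))
    (hlw : ∀ r ∈ R, Relation.ReflTransGen
      (fun y y' => (y, y') ∈ R ∧ ∃ μ : ℝ, reactionVec (y, y') = μ • reactionVec r) r.2 r.1)
    (ε : ℝ) (hε : 0 < ε) (c : Fin d → ℝ) (hc : ∀ i, 0 < c i) :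
    ∃ K : Set (Fin d → ℝ), IsCompact K ∧ K ⊆ posClass R c ∧
      ∀ κ : ℝ → (Fin d → ℕ) × (Fin d → ℕ) → ℝ, (∀ r ∈ R, Continuous (fun t => κ t r)) →
        (∀ t, ∀ r ∈ R, ε ≤ κ t r ∧ κ t r ≤ ε⁻¹) →
        ∀ x0 ∈ posClass R c, ∃ x : ℝ → (Fin d → ℝ), x 0 = x0 ∧
          (∀ t, 0 ≤ t → HasDerivWithinAt x (massAction R (κ t) (x t)) (Ici 0) t) ∧
          (∀ t, 0 ≤ t → ∀ i, 0 < x t i) ∧ (∃ T, ∀ t, T ≤ t → x t ∈ K) ∧
          (∀ (T : ℝ) (z : ℝ → (Fin d → ℝ)), z 0 = x0 →
            (∀ t, 0 ≤ t → t < T → HasDerivWithinAt z (massAction R (κ t) (z t)) (Ici 0) t) →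
            ∀ t, 0 ≤ t → t < T → z t = x t) := by
  by_cases hRne : R.Nonempty
  · by_cases hε1 : ε ≤ ε⁻¹
    · obtain ⟨A, _, v, g, hdisj, hg, hlw', hact⟩ := exists_labels_w R hne hRne hpar hlw
      exact permanent_core_w R hne v g hdisj hg hlw' hact (fun _ => ε) (fun _ => ε⁻¹)
        (fun _ _ => hε) (fun _ _ => hε1) c hc
    · refine ⟨∅, isCompact_empty, Set.empty_subset _, ?_⟩
      intro κ _ hκb
      obtain ⟨r, hr⟩ := hRne
      have h1 := hκb 0 r hr
      exact absurd (le_trans h1.1 h1.2) hε1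
  · rw [Finset.not_nonempty_iff_eq_empty] at hRne
    subst hRne
    obtain ⟨K, hKc, hKP, h⟩ := permanent_empty c hc
    exact ⟨K, hKc, hKP, fun κ _ _ x0 hx0 => h κ x0 hx0⟩

/-- **Permanence (constant rates)** for the same class of networks. -/
theorem permanent_linewise {d : ℕ} (R : Finset ((Fin d → ℕ) × (Fin d → ℕ)))
    (hne : ∀ r ∈ R, r.1 ≠ r.2)
    (hpar : ∀ r ∈ R, ∀ r' ∈ R,
      (∃ μ : ℝ, reactionVec r' = μ • reactionVec r) ∨
      (∀ i, reactionVec r i = 0 ∨ reactionVec r' i = 0))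
    (hlw : ∀ r ∈ R, Relation.ReflTransGen
      (fun y y' => (y, y') ∈ R ∧ ∃ μ : ℝ, reactionVec (y, y') = μ • reactionVec r) r.2 r.1)
    (k : (Fin d → ℕ) × (Fin d → ℕ) → ℝ) (hk : ∀ r ∈ R, 0 < k r)
    (c : Fin d → ℝ) (hc : ∀ i, 0 < c i) :
    IsPermanentOn (massAction R k) (posClass R c) := by
  by_cases hRne : R.Nonempty
  · obtain ⟨A, _, v, g, hdisj, hg, hlw', hact⟩ := exists_labels_w R hne hRne hpar hlw
    obtain ⟨K, hKc, hKP, h⟩ := permanent_core_w R hne v g hdisj hg hlw' hact k k hk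
      (fun _ _ => le_rfl) c hc
    exact ⟨K, hKc, hKP, fun x0 hx0 => h (fun _ => k) (fun r _ => continuous_const)
      (fun t r _ => ⟨le_rfl, le_rfl⟩) x0 hx0⟩
  · rw [Finset.not_nonempty_iff_eq_empty] at hRne
    subst hRne
    obtain ⟨K, hKc, hKP, h⟩ := permanent_empty c hc
    exact ⟨K, hKc, hKP, fun x0 hx0 => h (fun _ => k) x0 hx0⟩

/-- The intrinsic conditions hold for a reversible network in which every reaction changes the
amount of exactly one species. -/
lemma linewise_of_reversible_one_species {d : ℕ} (R : Finset ((Fin d → ℕ) × (Fin d → ℕ)))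
    (hne : ∀ r ∈ R, r.1 ≠ r.2)
    (hrev : ∀ r ∈ R, (r.2, r.1) ∈ R)
    (hone : ∀ r ∈ R, ∃ i, ∀ j, j ≠ i → r.1 j = r.2 j) :
    (∀ r ∈ R, ∀ r' ∈ R,
      (∃ μ : ℝ, reactionVec r' = μ • reactionVec r) ∨
      (∀ i, reactionVec r i = 0 ∨ reactionVec r' i = 0)) ∧
    (∀ r ∈ R, Relation.ReflTransGen
      (fun y y' => (y, y') ∈ R ∧ ∃ μ : ℝ, reactionVec (y, y') = μ • reactionVec r) r.2 r.1) := by
  have hzero : ∀ r ∈ R, ∀ i, (∀ j, j ≠ i → r.1 j = r.2 j) → ∀ j, j ≠ i → reactionVec r j = 0 := by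
    intro r _ i hi j hj
    simp only [reactionVec, hi j hj, sub_self]
  have hnz : ∀ r ∈ R, ∀ i, (∀ j, j ≠ i → r.1 j = r.2 j) → reactionVec r i ≠ 0 := by
    intro r hr i hi h0
    apply reactionVec_ne_zero r (hne r hr)
    funext j
    by_cases hj : j = i
    · rw [hj]; exact h0
    · exact hzero r hr i hi j hj
  refine ⟨?_, ?_⟩
  · intro r hr r' hr'
    obtain ⟨i, hi⟩ := hone r hr
    obtain ⟨i', hi'⟩ := hone r' hr'
    by_cases hii : i' = i
    · left
      rw [hii] at hi'
      refine ⟨reactionVec r' i / reactionVec r i, ?_⟩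
      funext j
      by_cases hj : j = i
      · rw [hj, Pi.smul_apply, smul_eq_mul, div_mul_cancel₀ _ (hnz r hr i hi)]
      · rw [Pi.smul_apply, smul_eq_mul, hzero r hr i hi j hj, hzero r' hr' i hi' j hj, mul_zero]
    · right
      intro j
      by_cases hj : j = i
      · right
        exact hzero r' hr' i' hi' j (by rw [hj]; exact fun h => hii h.symm)
      · left
        exact hzero r hr i hi j hj
  · intro r hr
    apply Relation.ReflTransGen.single
    refine ⟨hrev r hr, -1, ?_⟩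
    funext j
    simp only [reactionVec, Pi.smul_apply, smul_eq_mul]
    ring

end Vale.Agent.H19
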