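import Mathlib
import Vale.Agent.H19.MassAction
import Vale.Agent.H19.LinewiseFinal

/-!
# Time-dependent rates when the stoichiometric subspace is one-dimensional

A weakly reversible network with `dim S = 1` satisfies the two hypotheses of
`permanent_linewise_var`: all reaction vectors are multiples of each other, and the return
paths given by weak reversibility only use reactions of the network.
-/

namespace Vale.Agent.H19

/-- a reaction `y → y'` with `y ≠ y'` has a nonzero reaction vector -/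
theorem reactionVec_ne_zero_of_ne {d : ℕ} (r : (Fin d → ℕ) × (Fin d → ℕ)) (h : r.1 ≠ r.2) :
    reactionVec r ≠ 0 := by
  intro h0
  apply h
  funext i
  have h1 := congrFun h0 i
  simp only [reactionVec, Pi.zero_apply] at h1
  have h2 : (r.1 i : ℝ) = (r.2 i : ℝ) := by linarith
  exact Nat.cast_injective h2

/-- if the stoichiometric subspace has dimension one, any two reaction vectors are
proportional -/
theorem parallel_of_finrank_one {d : ℕ} (R : Finset ((Fin d → ℕ) × (Fin d → ℕ)))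
    (hne : ∀ r ∈ R, r.1 ≠ r.2) (hdim : Module.finrank ℝ (stoichSubspace R) = 1)
    (r : (Fin d → ℕ) × (Fin d → ℕ)) (hr : r ∈ R)
    (r' : (Fin d → ℕ) × (Fin d → ℕ)) (hr' : r' ∈ R) :
    ∃ μ : ℝ, reactionVec r' = μ • reactionVec r := by
  have hmem : ∀ s ∈ R, reactionVec s ∈ stoichSubspace R := fun s hs =>
    Submodule.subset_span ⟨s, hs, rfl⟩
  have hv : (⟨reactionVec r, hmem r hr⟩ : stoichSubspace R) ≠ 0 := by
    intro h0
    exact reactionVec_ne_zero_of_ne r (hne r hr) (congrArg Subtype.val h0)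
  obtain ⟨μ, hμ⟩ :=
    (finrank_eq_one_iff_of_nonzero' _ hv).mp hdim ⟨reactionVec r', hmem r' hr'⟩
  exact ⟨μ, (congrArg Subtype.val hμ).symm⟩

/-- uniform permanence with continuous time-dependent rates in `[ε, ε⁻¹]` for every weakly
reversible network whose stoichiometric subspace has dimension one -/
theorem permanent_finrank_one_var {d : ℕ} (R : Finset ((Fin d → ℕ) × (Fin d → ℕ)))
    (hne : ∀ r ∈ R, r.1 ≠ r.2) (hwr : WeaklyReversible R)
    (hdim : Module.finrank ℝ (stoichSubspace R) = 1)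
    (ε : ℝ) (hε : 0 < ε) (c : Fin d → ℝ) (hc : ∀ i, 0 < c i) :
    ∃ K : Set (Fin d → ℝ), IsCompact K ∧ K ⊆ posClass R c ∧
      ∀ κ : ℝ → (Fin d → ℕ) × (Fin d → ℕ) → ℝ, (∀ r ∈ R, Continuous (fun t => κ t r)) →
        (∀ t, ∀ r ∈ R, ε ≤ κ t r ∧ κ t r ≤ ε⁻¹) →
        ∀ x0 ∈ posClass R c, ∃ x : ℝ → (Fin d → ℝ), x 0 = x0 ∧
          (∀ t, 0 ≤ t → HasDerivWithinAt x (massAction R (κ t) (x t)) (Set.Ici 0) t) ∧
          (∀ t, 0 ≤ t → ∀ i, 0 < x t i) ∧ (∃ T, ∀ t, T ≤ t → x t ∈ K) ∧
          (∀ (T : ℝ) (z : ℝ → (Fin d → ℝ)), z 0 = x0 →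
            (∀ t, 0 ≤ t → t < T → HasDerivWithinAt z (massAction R (κ t) (z t)) (Set.Ici 0) t) →
            ∀ t, 0 ≤ t → t < T → z t = x t) :=
  permanent_linewise_var R hne
    (fun r hr r' hr' => Or.inl (parallel_of_finrank_one R hne hdim r hr r' hr'))
    (fun r hr => Relation.ReflTransGen.mono
      (fun y y' (h : (y, y') ∈ R) =>
        (⟨h, parallel_of_finrank_one R hne hdim r hr (y, y') h⟩ :
          (y, y') ∈ R ∧ ∃ μ : ℝ, reactionVec (y, y') = μ • reactionVec r)) _ _ (hwr r hr))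
    ε hε c hc

end Vale.Agent.H19
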